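import Vale.Agent.P254.S.H929.SegBase

/-!
# P254, block S: segments of the certificate (helper929, generated)
-/

noncomputable section

namespace Vale.Agent.P254.S929

open Real Set

lemma segL0 {m : ℝ} (h1 : 0 < m) (h2 : m ≤ (3 / 1000)) :
    G (57 / 250) 0 (-384 / 125) ((-50 / 29) + (50 / 29) * m) m ≤ (4589 / 5000) := by
  have x1 : 0 ≤ m - 0 := by linarith
  have x2 : 0 ≤ (3 / 1000) - m := by linarith
  obtain ⟨c1, c2⟩ := lg_57_250
  obtain ⟨l1, l2⟩ := lg_1_1000
  have hc0 := core0 (by norm_num : (0 : ℝ) < (1 / 1000)) h1 l1.le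
  have hL0 : ((-37139567 / 420500000) + (-5137291 / 4205000) * m + (16816287 / 8410000) * m ^ 2) ≤ 2 * (m * ((-1726939 / 250000) + 1) - (1 / 1000)) := by
    have key : 2 * (m * ((-1726939 / 250000) + 1) - (1 / 1000)) - ((-37139567 / 420500000) + (-5137291 / 4205000) * m + (16816287 / 8410000) * m ^ 2) = (72597134 / 7569) * (m ^ 0 * ((3 / 1000) - m) ^ 2) + (14808263228 / 946125) * (m ^ 1 * ((3 / 1000) - m) ^ 1) + (458538371657 / 75690000) * (m ^ 2 * ((3 / 1000) - m) ^ 0) := by ring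
    rw [← sub_nonneg, key]
    positivity
  have hL : ((-37139567 / 420500000) + (-5137291 / 4205000) * m + (16816287 / 8410000) * m ^ 2) ≤ 2 * (m * Real.log m) := by linarith
  unfold G al ga be
  rw [F_0 (by linarith)]
  linarith

lemma segL1 {m : ℝ} (h1 : (3 / 1000) ≤ m) (h2 : m ≤ (1 / 100)) :
    G (57 / 250) 0 (-384 / 125) ((-50 / 29) + (50 / 29) * m) m ≤ (4589 / 5000) := by
  have x1 : 0 ≤ m - (3 / 1000) := by linarith
  have x2 : 0 ≤ (1 / 100) - m := by linarith
  obtain ⟨c1, c2⟩ := lg_57_250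
  obtain ⟨l1, l2⟩ := lg_3_1000
  have hw : 0 ≤ (0 + 2 * m) := by nlinarith
  have hN : ((-37139567 / 420500000) + (-5137291 / 4205000) * m + (16816287 / 8410000) * m ^ 2) * (m + (3 / 1000)) ^ 3 ≤ (0 + 2 * m) * ((-5809143 / 1000000) * (m + (3 / 1000)) ^ 3 + 2 * (m - (3 / 1000)) * (m + (3 / 1000)) ^ 2 +
      2 / 3 * (m - (3 / 1000)) ^ 3) := by
    have key : (0 + 2 * m) * ((-5809143 / 1000000) * (m + (3 / 1000)) ^ 3 + 2 * (m - (3 / 1000)) * (m + (3 / 1000)) ^ 2 +
      2 / 3 * (m - (3 / 1000)) ^ 3) - ((-37139567 / 420500000) + (-5137291 / 4205000) * m + (16816287 / 8410000) * m ^ 2) * (m + (3 / 1000)) ^ 3 = (12969028358199 / 17668358750) * ((m - (3 / 1000)) ^ 0 * ((1 / 100) - m) ^ 5) + (193742795918187 / 35336717500) * ((m - (3 / 1000)) ^ 1 * ((1 / 100) - m) ^ 4) + (1070640141212277 / 70673435000) * ((m - (3 / 1000)) ^ 2 * ((1 / 100) - m) ^ 3) + (2619836197482089 / 141346870000) * ((m - (3 / 1000)) ^ 3 * ((1 / 100) - m) ^ 2) + (19406205849563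 / 2120203050) * ((m - (3 / 1000)) ^ 4 * ((1 / 100) - m) ^ 1) + (4310686603117 / 4240406100) * ((m - (3 / 1000)) ^ 5 * ((1 / 100) - m) ^ 0) := by ring
    rw [← sub_nonneg, key]
    positivity
  have hL := core (by norm_num : (0 : ℝ) < (3 / 1000)) h1 (by linarith : (-5809143 / 1000000) ≤ Real.log (3 / 1000)) hw hN
  unfold G al ga be
  rw [F_0 (by linarith)]
  linarith

lemma segL2 {m : ℝ} (h1 : (1 / 100) ≤ m) (h2 : m ≤ (3 / 50)) :
    G (57 / 250) (-11 / 10) (-24886 / 3625) ((-159 / 100) + (931 / 50) * m) m ≤ (4589 / 5000) := by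
  have x1 : 0 ≤ m - (1 / 100) := by linarith
  have x2 : 0 ≤ (3 / 50) - m := by linarith
  obtain ⟨c1, c2⟩ := lg_57_250
  obtain ⟨l1, l2⟩ := lg_1_100
  have hw : 0 ≤ ((389 / 2500) + (26999 / 1250) * m) := by nlinarith
  have hN : ((-12005673 / 14500000) + (-1330649 / 14500) * m + (3318767 / 10000) * m ^ 2) * (m + (1 / 100)) ^ 3 ≤ ((389 / 2500) + (26999 / 1250) * m) * ((-4605171 / 1000000) * (m + (1 / 100)) ^ 3 + 2 * (m - (1 / 100)) * (m + (1 / 100)) ^ 2 +
      2 / 3 * (m - (1 / 100)) ^ 3) := by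
    have key : ((389 / 2500) + (26999 / 1250) * m) * ((-4605171 / 1000000) * (m + (1 / 100)) ^ 3 + 2 * (m - (1 / 100)) * (m + (1 / 100)) ^ 2 +
      2 / 3 * (m - (1 / 100)) ^ 3) - ((-12005673 / 14500000) + (-1330649 / 14500) * m + (3318767 / 10000) * m ^ 2) * (m + (1 / 100)) ^ 3 = (4473400659 / 141601562500) * ((m - (1 / 100)) ^ 0 * ((3 / 50) - m) ^ 5) + (57827658697 / 1953125000) * ((m - (1 / 100)) ^ 1 * ((3 / 50) - m) ^ 4) + (38049961031087 / 113281250000) * ((m - (1 / 100)) ^ 2 * ((3 / 50) - m) ^ 3) + (320583616454279 / 226562500000) * ((m - (1 / 100)) ^ 3 * ((3 / 50) - m) ^ 2) + (1636386412066141 / 679687500000) * ((m - (1 / 100)) ^ 4 * ((3 / 50) - m) ^ 1) + (821575414318979 / 849609375000) * ((m - (1 / 100)) ^ 5 * ((3 / 50) - m) ^ 0) := by ring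
    rw [← sub_nonneg, key]
    positivity
  have hL := core (by norm_num : (0 : ℝ) < (1 / 100)) h1 (by linarith : (-4605171 / 1000000) ≤ Real.log (1 / 100)) hw hN
  unfold G al ga be
  rw [F_0 (by linarith)]
  linarith

lemma segL3 {m : ℝ} (h1 : (3 / 50) ≤ m) (h2 : m ≤ (17 / 100)) :
    G (57 / 250) (-11 / 10) (-24886 / 3625) ((-4 / 5) + (573 / 100) * m) m ≤ (4589 / 5000) := by
  have x1 : 0 ≤ m - (3 / 50) := by linarith
  have x2 : 0 ≤ (17 / 100) - m := by linarith
  obtain ⟨c1, c2⟩ := lg_57_250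
  obtain ⟨l1, l2⟩ := lg_3_50
  have hw : 0 ≤ ((33959 / 31250) + (16353993 / 2500000) * m) := by nlinarith
  have hN : ((-326981427 / 72500000) + (-19385218681 / 1450000000) * m + (1341081 / 50000) * m ^ 2) * (m + (3 / 50)) ^ 3 ≤ ((33959 / 31250) + (16353993 / 2500000) * m) * ((-2813411 / 1000000) * (m + (3 / 50)) ^ 3 + 2 * (m - (3 / 50)) * (m + (3 / 50)) ^ 2 +
      2 / 3 * (m - (3 / 50)) ^ 3) := by
    have key : ((33959 / 31250) + (16353993 / 2500000) * m) * ((-2813411 / 1000000) * (m + (3 / 50)) ^ 3 + 2 * (m - (3 / 50)) * (m + (3 / 50)) ^ 2 +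
      2 / 3 * (m - (3 / 50)) ^ 3) - ((-326981427 / 72500000) + (-19385218681 / 1450000000) * m + (1341081 / 50000) * m ^ 2) * (m + (3 / 50)) ^ 3 = (103172556039893073 / 912202929687500) * ((m - (3 / 50)) ^ 0 * ((17 / 100) - m) ^ 5) + (780917744236693293 / 729762343750000) * ((m - (3 / 50)) ^ 1 * ((17 / 100) - m) ^ 4) + (55560565602710185593 / 14595246875000000) * ((m - (3 / 50)) ^ 2 * ((17 / 100) - m) ^ 3) + (1131772577863187973937 / 175142962500000000) * ((m - (3 / 50)) ^ 3 * ((17 / 100) - m) ^ 2) + (1826518946947749832111 / 350285925000000000) * ((m - (3 / 50)) ^ 4 * ((17 / 100) - m) ^ 1) + (551809874000425997861 / 350285925000000000) * ((m - (3 / 50)) ^ 5 * ((17 / 100) - m) ^ 0) := by ring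
    rw [← sub_nonneg, key]
    positivity
  have hL := core (by norm_num : (0 : ℝ) < (3 / 50)) h1 (by linarith : (-2813411 / 1000000) ≤ Real.log (3 / 50)) hw hN
  obtain ⟨g, g1, g2, hF⟩ := F_1
  have hg := gam (s := ((-4 / 5) + (573 / 100) * m)) (g := g) (gb := (-35007 / 1000000)) (S := 8) (e := 1 / 1000000) (by linarith) (by linarith) (by linarith) (by linarith)
  unfold G al ga be
  rw [hF m (by linarith) (by linarith)]
  linarith

lemma segL4 {m : ℝ} (h1 : (17 / 100) ≤ m) (h2 : m ≤ (31 / 100)) :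
    G (57 / 250) (-11 / 10) (-24886 / 3625) ((-7 / 20) + 3 * m) m ≤ (4589 / 5000) := by
  have x1 : 0 ≤ m - (17 / 100) := by linarith
  have x2 : 0 ≤ (31 / 100) - m := by linarith
  obtain ⟨c1, c2⟩ := lg_57_250
  obtain ⟨l1, l2⟩ := lg_17_100
  have hw : 0 ≤ ((805211 / 500000) + (83481 / 25000) * m) := by nlinarith
  have hN : ((-1743999433 / 290000000) + (-10101433 / 14500000) * m + (55587 / 10000) * m ^ 2) * (m + (17 / 100)) ^ 3 ≤ ((805211 / 500000) + (83481 / 25000) * m) * ((-1771957 / 1000000) * (m + (17 / 100)) ^ 3 + 2 * (m - (17 / 100)) * (m + (17 / 100)) ^ 2 +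
      2 / 3 * (m - (17 / 100)) ^ 3) := by
    have key : ((805211 / 500000) + (83481 / 25000) * m) * ((-1771957 / 1000000) * (m + (17 / 100)) ^ 3 + 2 * (m - (17 / 100)) * (m + (17 / 100)) ^ 2 +
      2 / 3 * (m - (17 / 100)) ^ 3) - ((-1743999433 / 290000000) + (-10101433 / 14500000) * m + (55587 / 10000) * m ^ 2) * (m + (17 / 100)) ^ 3 = (94038761646657819 / 60925375000000) * ((m - (17 / 100)) ^ 0 * ((31 / 100) - m) ^ 5) + (497521671808456581 / 48740300000000) * ((m - (17 / 100)) ^ 1 * ((31 / 100) - m) ^ 4) + (6473459411120301989 / 243701500000000) * ((m - (17 / 100)) ^ 2 * ((31 / 100) - m) ^ 3) + (3111404691121080919 / 91388062500000) * ((m - (17 / 100)) ^ 3 * ((31 / 100) - m) ^ 2) + (245469941651976271 / 11423507812500) * ((m - (17 / 100)) ^ 4 * ((31 / 100) - m) ^ 1) + (30474945641934649 / 5711753906250) * ((m - (17 / 100)) ^ 5 * ((31 / 100) - m) ^ 0) := by ring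
    rw [← sub_nonneg, key]
    positivity
  have hL := core (by norm_num : (0 : ℝ) < (17 / 100)) h1 (by linarith : (-1771957 / 1000000) ≤ Real.log (17 / 100)) hw hN
  obtain ⟨g, g1, g2, hF⟩ := F_2
  have hg := gam (s := ((-7 / 20) + 3 * m)) (g := g) (gb := (-74591 / 1000000)) (S := 8) (e := 1 / 1000000) (by linarith) (by linarith) (by linarith) (by linarith)
  unfold G al ga be
  rw [hF m (by linarith) (by linarith)]
  linarith

lemma segL5 {m : ℝ} (h1 : (31 / 100) ≤ m) (h2 : m ≤ (13 / 25)) :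
    G (57 / 250) (-11 / 10) (-24886 / 3625) ((-1 / 20) + (203 / 100) * m) m ≤ (4589 / 5000) := by
  have x1 : 0 ≤ m - (31 / 100) := by linarith
  have x2 : 0 ≤ (13 / 25) - m := by linarith
  obtain ⟨c1, c2⟩ := lg_57_250
  obtain ⟨l1, l2⟩ := lg_31_100
  have hw : 0 ≤ ((1948221 / 1000000) + (10511137 / 5000000) * m) := by nlinarith
  have hN : ((-244957557 / 36250000) + (1143877047 / 362500000) * m + (17841 / 12500) * m ^ 2) * (m + (31 / 100)) ^ 3 ≤ ((1948221 / 1000000) + (10511137 / 5000000) * m) * ((-1171183 / 1000000) * (m + (31 / 100)) ^ 3 + 2 * (m - (31 / 100)) * (m + (31 / 100)) ^ 2 +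
      2 / 3 * (m - (31 / 100)) ^ 3) := by
    have key : ((1948221 / 1000000) + (10511137 / 5000000) * m) * ((-1171183 / 1000000) * (m + (31 / 100)) ^ 3 + 2 * (m - (31 / 100)) * (m + (31 / 100)) ^ 2 +
      2 / 3 * (m - (31 / 100)) ^ 3) - ((-244957557 / 36250000) + (1143877047 / 362500000) * m + (17841 / 12500) * m ^ 2) * (m + (31 / 100)) ^ 3 = (160267102433340213823 / 105749043750000000) * ((m - (31 / 100)) ^ 0 * ((13 / 25) - m) ^ 5) + (395442454296592133339 / 42299617500000000) * ((m - (31 / 100)) ^ 1 * ((13 / 25) - m) ^ 4) + (9637933564269326776807 / 422996175000000000) * ((m - (31 / 100)) ^ 2 * ((13 / 25) - m) ^ 3) + (3316445381676691060019 / 120856050000000000) * ((m - (31 / 100)) ^ 3 * ((13 / 25) - m) ^ 2) + (13813039544842463433427 / 845992350000000000) * ((m - (31 / 100)) ^ 4 * ((13 / 25) - m) ^ 1) + (405733658402231326339 / 105749043750000000) * ((m - (31 / 100)) ^ 5 * ((13 / 25) - m) ^ 0) := by ring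
    rw [← sub_nonneg, key]
    positivity
  have hL := core (by norm_num : (0 : ℝ) < (31 / 100)) h1 (by linarith : (-1171183 / 1000000) ≤ Real.log (31 / 100)) hw hN
  obtain ⟨g, g1, g2, hF⟩ := F_3
  have hg := gam (s := ((-1 / 20) + (203 / 100) * m)) (g := g) (gb := (-39681 / 250000)) (S := 8) (e := 1 / 1000000) (by linarith) (by linarith) (by linarith) (by linarith)
  unfold G al ga be
  rw [hF m (by linarith) (by linarith)]
  linarith

lemma segL6 {m : ℝ} (h1 : (13 / 25) ≤ m) (h2 : m ≤ (81 / 100)) :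
    G (57 / 250) (-11 / 10) (-24886 / 3625) ((19 / 100) + (157 / 100) * m) m ≤ (4589 / 5000) := by
  have x1 : 0 ≤ m - (13 / 25) := by linarith
  have x2 : 0 ≤ (81 / 100) - m := by linarith
  obtain ⟨c1, c2⟩ := lg_57_250
  obtain ⟨l1, l2⟩ := lg_13_25
  have hw : 0 ≤ ((10909701 / 5000000) + (7517003 / 5000000) * m) := by nlinarith
  have hN : ((-10369169223 / 1450000000) + (6705635531 / 1450000000) * m + (12301 / 50000) * m ^ 2) * (m + (13 / 25)) ^ 3 ≤ ((10909701 / 5000000) + (7517003 / 5000000) * m) * ((-653927 / 1000000) * (m + (13 / 25)) ^ 3 + 2 * (m - (13 / 25)) * (m + (13 / 25)) ^ 2 +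
      2 / 3 * (m - (13 / 25)) ^ 3) := by
    have key : ((10909701 / 5000000) + (7517003 / 5000000) * m) * ((-653927 / 1000000) * (m + (13 / 25)) ^ 3 + 2 * (m - (13 / 25)) * (m + (13 / 25)) ^ 2 +
      2 / 3 * (m - (13 / 25)) ^ 3) - ((-10369169223 / 1450000000) + (6705635531 / 1450000000) * m + (12301 / 50000) * m ^ 2) * (m + (13 / 25)) ^ 3 = (43672055548581901272 / 29044107470703125) * ((m - (13 / 25)) ^ 0 * ((81 / 100) - m) ^ 5) + (101654227114654722053 / 11617642988281250) * ((m - (13 / 25)) ^ 1 * ((81 / 100) - m) ^ 4) + (9369231271609910658503 / 464705719531250000) * ((m - (13 / 25)) ^ 2 * ((81 / 100) - m) ^ 3) + (256466118828725502249977 / 11152937268750000000) * ((m - (13 / 25)) ^ 3 * ((81 / 100) - m) ^ 2) + (1157989048934893562370037 / 89223498150000000000) * ((m - (13 / 25)) ^ 4 * ((81 / 100) - m) ^ 1) + (86195547364624287714447 / 29741166050000000000) * ((m - (13 / 25)) ^ 5 * ((81 / 100) - m) ^ 0) := by ring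
    rw [← sub_nonneg, key]
    positivity
  have hL := core (by norm_num : (0 : ℝ) < (13 / 25)) h1 (by linarith : (-653927 / 1000000) ≤ Real.log (13 / 25)) hw hN
  obtain ⟨g, g1, g2, hF⟩ := F_4
  have hg := gam (s := ((19 / 100) + (157 / 100) * m)) (g := g) (gb := (-223227 / 1000000)) (S := 8) (e := 1 / 1000000) (by linarith) (by linarith) (by linarith) (by linarith)
  unfold G al ga be
  rw [hF m (by linarith) (by linarith)]
  linarith

lemma segL7 {m : ℝ} (h1 : (81 / 100) ≤ m) (h2 : m ≤ (5 / 4)) :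
    G (57 / 250) (-11 / 10) (-24886 / 3625) ((39 / 100) + (133 / 100) * m) m ≤ (4589 / 5000) := by
  have x1 : 0 ≤ m - (81 / 100) := by linarith
  have x2 : 0 ≤ (5 / 4) - m := by linarith
  obtain ⟨c1, c2⟩ := lg_57_250
  obtain ⟨l1, l2⟩ := lg_81_100
  have hw : 0 ≤ ((2913907 / 1250000) + (1411529 / 1250000) * m) := by nlinarith
  have hN : ((-10635184077 / 1450000000) + (7641420581 / 1450000000) * m + (-5541 / 25000) * m ^ 2) * (m + (81 / 100)) ^ 3 ≤ ((2913907 / 1250000) + (1411529 / 1250000) * m) * ((-105361 / 500000) * (m + (81 / 100)) ^ 3 + 2 * (m - (81 / 100)) * (m + (81 / 100)) ^ 2 +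
      2 / 3 * (m - (81 / 100)) ^ 3) := by
    have key : ((2913907 / 1250000) + (1411529 / 1250000) * m) * ((-105361 / 500000) * (m + (81 / 100)) ^ 3 + 2 * (m - (81 / 100)) * (m + (81 / 100)) ^ 2 +
      2 / 3 * (m - (81 / 100)) ^ 3) - ((-10635184077 / 1450000000) + (7641420581 / 1450000000) * m + (-5541 / 25000) * m ^ 2) * (m + (81 / 100)) ^ 3 = (2434495671970338086379 / 3736383200000000000) * ((m - (81 / 100)) ^ 0 * ((5 / 4) - m) ^ 5) + (2734453591513879426317 / 747276640000000000) * ((m - (81 / 100)) ^ 1 * ((5 / 4) - m) ^ 4) + (15164326865748541844817 / 1868191600000000000) * ((m - (81 / 100)) ^ 2 * ((5 / 4) - m) ^ 3) + (49807642421578143720649 / 5604574800000000000) * ((m - (81 / 100)) ^ 3 * ((5 / 4) - m) ^ 2) + (17931817417100210709363 / 3736383200000000000) * ((m - (81 / 100)) ^ 4 * ((5 / 4) - m) ^ 1) + (458211845670230504803 / 448365984000000000) * ((m - (81 / 100)) ^ 5 * ((5 / 4) - m) ^ 0) := by ring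
    rw [← sub_nonneg, key]
    positivity
  have hL := core (by norm_num : (0 : ℝ) < (81 / 100)) h1 (by linarith : (-105361 / 500000) ≤ Real.log (81 / 100)) hw hN
  obtain ⟨g, g1, g2, hF⟩ := F_5
  have hg := gam (s := ((39 / 100) + (133 / 100) * m)) (g := g) (gb := (-288933 / 1000000)) (S := 8) (e := 1 / 1000000) (by linarith) (by linarith) (by linarith) (by linarith)
  unfold G al ga be
  rw [hF m (by linarith) (by linarith)]
  linarith

lemma segL8 {m : ℝ} (h1 : (5 / 4) ≤ m) (h2 : m ≤ 2) :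
    G (57 / 250) (-11 / 10) (-24886 / 3625) ((57 / 100) + (119 / 100) * m) m ≤ (4589 / 5000) := by
  have x1 : 0 ≤ m - (5 / 4) := by linarith
  have x2 : 0 ≤ 2 - m := by linarith
  obtain ⟨c1, c2⟩ := lg_57_250
  obtain ⟨l1, l2⟩ := lg_5_4
  have hw : 0 ≤ ((6088757 / 2500000) + (2273019 / 2500000) * m) := by nlinarith
  have hN : ((-10753425603 / 1450000000) + (8014181999 / 1450000000) * m + (-4993 / 12500) * m ^ 2) * (m + (5 / 4)) ^ 3 ≤ ((6088757 / 2500000) + (2273019 / 2500000) * m) * ((223143 / 1000000) * (m + (5 / 4)) ^ 3 + 2 * (m - (5 / 4)) * (m + (5 / 4)) ^ 2 +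
      2 / 3 * (m - (5 / 4)) ^ 3) := by
    have key : ((6088757 / 2500000) + (2273019 / 2500000) * m) * ((223143 / 1000000) * (m + (5 / 4)) ^ 3 + 2 * (m - (5 / 4)) * (m + (5 / 4)) ^ 2 +
      2 / 3 * (m - (5 / 4)) ^ 3) - ((-10753425603 / 1450000000) + (8014181999 / 1450000000) * m + (-4993 / 12500) * m ^ 2) * (m + (5 / 4)) ^ 3 = (559286037641081 / 4404375000000) * ((m - (5 / 4)) ^ 0 * (2 - m) ^ 5) + (29805130826807569 / 44043750000000) * ((m - (5 / 4)) ^ 1 * (2 - m) ^ 4) + (619020329875385057 / 440437500000000) * ((m - (5 / 4)) ^ 2 * (2 - m) ^ 3) + (6245892593015691827 / 4404375000000000) * ((m - (5 / 4)) ^ 3 * (2 - m) ^ 2) + (3053226732454210777 / 4404375000000000) * ((m - (5 / 4)) ^ 4 * (2 - m) ^ 1) + (28903483835134681 / 220218750000000) * ((m - (5 / 4)) ^ 5 * (2 - m) ^ 0) := by ring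
    rw [← sub_nonneg, key]
    positivity
  have hL := core (by norm_num : (0 : ℝ) < (5 / 4)) h1 (by linarith : (223143 / 1000000) ≤ Real.log (5 / 4)) hw hN
  obtain ⟨g, g1, g2, hF⟩ := F_6
  have hg := gam (s := ((57 / 100) + (119 / 100) * m)) (g := g) (gb := (-321949 / 1000000)) (S := 8) (e := 1 / 1000000) (by linarith) (by linarith) (by linarith) (by linarith)
  unfold G al ga be
  rw [hF m (by linarith) (by linarith)]
  linarith

lemma segL9 {m : ℝ} (h1 : 2 ≤ m) (h2 : m ≤ (169 / 50)) :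
    G (57 / 250) (-11 / 10) (-24886 / 3625) ((19 / 25) + (109 / 100) * m) m ≤ (4589 / 5000) := by
  have x1 : 0 ≤ m - 2 := by linarith
  have x2 : 0 ≤ (169 / 50) - m := by linarith
  obtain ⟨c1, c2⟩ := lg_57_250
  obtain ⟨l1, l2⟩ := lg_2_1
  have hw : 0 ≤ ((1612919 / 625000) + (2082009 / 2500000) * m) := by nlinarith
  have hN : ((-337991147 / 45312500) + (8152758789 / 1450000000) * m + (-5473 / 12500) * m ^ 2) * (m + 2) ^ 3 ≤ ((1612919 / 625000) + (2082009 / 2500000) * m) * ((693147 / 1000000) * (m + 2) ^ 3 + 2 * (m - 2) * (m + 2) ^ 2 +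
      2 / 3 * (m - 2) ^ 3) := by
    have key : ((1612919 / 625000) + (2082009 / 2500000) * m) * ((693147 / 1000000) * (m + 2) ^ 3 + 2 * (m - 2) * (m + 2) ^ 2 +
      2 / 3 * (m - 2) ^ 3) - ((-337991147 / 45312500) + (8152758789 / 1450000000) * m + (-5473 / 12500) * m ^ 2) * (m + 2) ^ 3 = (21957471107174 / 1889871213375) * ((m - 2) ^ 0 * ((169 / 50) - m) ^ 5) + (9346588578438391 / 188987121337500) * ((m - 2) ^ 1 * ((169 / 50) - m) ^ 4) + (546406595980476899 / 7559484853500000) * ((m - 2) ^ 2 * ((169 / 50) - m) ^ 3) + (302304157321776780389 / 7559484853500000000) * ((m - 2) ^ 3 * ((169 / 50) - m) ^ 2) + (4459584655900388411269 / 755948485350000000000) * ((m - 2) ^ 4 * ((169 / 50) - m) ^ 1) + (597447135712080272369 / 755948485350000000000) * ((m - 2) ^ 5 * ((169 / 50) - m) ^ 0) := by ring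
    rw [← sub_nonneg, key]
    positivity
  have hL := core (by norm_num : (0 : ℝ) < 2) h1 (by linarith : (693147 / 1000000) ≤ Real.log 2) hw hN
  obtain ⟨g, g1, g2, hF⟩ := F_6
  have hg := gam (s := ((19 / 25) + (109 / 100) * m)) (g := g) (gb := (-321949 / 1000000)) (S := 8) (e := 1 / 1000000) (by linarith) (by linarith) (by linarith) (by linarith)
  unfold G al ga be
  rw [hF m (by linarith) (by linarith)]
  linarith

lemma segL10 {m : ℝ} (h1 : (169 / 50) ≤ m) (h2 : m ≤ (18 / 5)) :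
    G (57 / 250) (-11 / 10) (-24886 / 3625) ((87 / 100) + (53 / 50) * m) m ≤ (4589 / 5000) := by
  have x1 : 0 ≤ m - (169 / 50) := by linarith
  have x2 : 0 ≤ (18 / 5) - m := by linarith
  obtain ⟨c1, c2⟩ := lg_57_250
  obtain ⟨l1, l2⟩ := lg_169_50
  have hw : 0 ≤ ((6044261 / 2500000) + (636159 / 1250000) * m) := by nlinarith
  have hN : ((-34006137 / 4531250) + (199725387 / 36250000) * m + (-1069 / 2000) * m ^ 2) * (m + (169 / 50)) ^ 3 ≤ ((6044261 / 2500000) + (636159 / 1250000) * m) * ((9743 / 8000) * (m + (169 / 50)) ^ 3 + 2 * (m - (169 / 50)) * (m + (169 / 50)) ^ 2 +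
      2 / 3 * (m - (169 / 50)) ^ 3) := by
    have key : ((6044261 / 2500000) + (636159 / 1250000) * m) * ((9743 / 8000) * (m + (169 / 50)) ^ 3 + 2 * (m - (169 / 50)) * (m + (169 / 50)) ^ 2 +
      2 / 3 * (m - (169 / 50)) ^ 3) - ((-34006137 / 4531250) + (199725387 / 36250000) * m + (-1069 / 2000) * m ^ 2) * (m + (169 / 50)) ^ 3 = (488039458772093527 / 29190493750000) * ((m - (169 / 50)) ^ 0 * ((18 / 5) - m) ^ 5) + (1828874615781853549 / 23352395000000) * ((m - (169 / 50)) ^ 1 * ((18 / 5) - m) ^ 4) + (1289000525819329349 / 8052550000000) * ((m - (169 / 50)) ^ 2 * ((18 / 5) - m) ^ 3) + (250812765234382059679 / 1401143700000000) * ((m - (169 / 50)) ^ 3 * ((18 / 5) - m) ^ 2) + (301274484780306769999 / 2802287400000000) * ((m - (169 / 50)) ^ 4 * ((18 / 5) - m) ^ 1) + (15121893853516623361 / 560457480000000) * ((m - (169 / 50)) ^ 5 * ((18 / 5) - m) ^ 0) := by ring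
    rw [← sub_nonneg, key]
    positivity
  have hL := core (by norm_num : (0 : ℝ) < (169 / 50)) h1 (by linarith : (9743 / 8000) ≤ Real.log (169 / 50)) hw hN
  obtain ⟨g, g1, g2, hF⟩ := F_7
  have hg := gam (s := ((87 / 100) + (53 / 50) * m)) (g := g) (gb := (-14551 / 50000)) (S := 8) (e := 1 / 1000000) (by linarith) (by linarith) (by linarith) (by linarith)
  unfold G al ga be
  rw [hF m (by linarith) trivial]
  linarith

lemma segL11 {m : ℝ} (h1 : (18 / 5) ≤ m) :
    G (57 / 250) 0 (-384 / 125) ((-50 / 29) + (50 / 29) * m) m ≤ (4589 / 5000) := by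
  have x1 : 0 ≤ m - (18 / 5) := by linarith
  obtain ⟨c1, c2⟩ := lg_57_250
  obtain ⟨l1, l2⟩ := lg_18_5
  have hw : 0 ≤ ((16997 / 14500) + (12003 / 14500) * m) := by nlinarith
  have hN : ((-91825349 / 84100000) + (14985027 / 8410000) * m + (-3713 / 8410000) * m ^ 2) * (m + (18 / 5)) ^ 3 ≤ ((16997 / 14500) + (12003 / 14500) * m) * ((1280933 / 1000000) * (m + (18 / 5)) ^ 3 + 2 * (m - (18 / 5)) * (m + (18 / 5)) ^ 2 +
      2 / 3 * (m - (18 / 5)) ^ 3) := by
    have key : ((16997 / 14500) + (12003 / 14500) * m) * ((1280933 / 1000000) * (m + (18 / 5)) ^ 3 + 2 * (m - (18 / 5)) * (m + (18 / 5)) ^ 2 +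
      2 / 3 * (m - (18 / 5)) ^ 3) - ((-91825349 / 84100000) + (14985027 / 8410000) * m + (-3713 / 8410000) * m ^ 2) * (m + (18 / 5)) ^ 3 = (2808426735567 / 4106445312500) * (m - (18 / 5)) ^ 0 + (21378918700953 / 131406250000) * (m - (18 / 5)) ^ 1 + (8510369881077 / 90625000000) * (m - (18 / 5)) ^ 2 + (122798785107073 / 6307500000000) * (m - (18 / 5)) ^ 3 + (630203495171 / 420500000000) * (m - (18 / 5)) ^ 4 + (3713 / 8410000) * (m - (18 / 5)) ^ 5 := by ring
    rw [← sub_nonneg, key]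
    positivity
  have hL := core (by norm_num : (0 : ℝ) < (18 / 5)) h1 (by linarith : (1280933 / 1000000) ≤ Real.log (18 / 5)) hw hN
  obtain ⟨g, g1, g2, hF⟩ := F_7
  have hg := gaminf (s := ((-50 / 29) + (50 / 29) * m)) (g := g) (gb := (-14551 / 50000)) (e := 1 / 1000000) (by linarith) (by linarith)
  unfold G al ga be
  rw [hF m (by linarith) trivial]
  linarith

end Vale.Agent.P254.S929
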