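import Vale.Agent.P254.S.H929.SegBase

/-!
# P254, block S: segments of the certificate (helper929, generated)
-/

noncomputable section

namespace Vale.Agent.P254.S929

open Real Set

lemma segM0 {m : ℝ} (h1 : 0 < m) (h2 : m ≤ (7 / 1000)) :
    G (341 / 500) (-11 / 10) (-7467 / 1250) ((-50 / 29) + 0 * m) m ≤ (4589 / 5000) := by
  have x1 : 0 ≤ m - 0 := by linarith
  have x2 : 0 ≤ (7 / 1000) - m := by linarith
  obtain ⟨c1, c2⟩ := lg_341_500
  have hL : ((-27542307 / 420500000) + (1105653 / 145000) * m + (6677 / 10000) * m ^ 2) ≤ 0 := by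
    have key : -((-27542307 / 420500000) + (1105653 / 145000) * m + (6677 / 10000) * m ^ 2) = (55084614 / 41209) * (m ^ 0 * ((7 / 1000) - m) ^ 2) + (326398581 / 206045) * (m ^ 1 * ((7 / 1000) - m) ^ 1) + (101675869507 / 412090000) * (m ^ 2 * ((7 / 1000) - m) ^ 0) := by ring
    rw [← neg_nonneg, key]
    positivity
  unfold G al ga be
  rw [F_0 (by linarith)]
  linarith

lemma segM1 {m : ℝ} (h1 : (7 / 1000) ≤ m) (h2 : m ≤ (9 / 1000)) :
    G (341 / 500) (-11 / 10) (-7467 / 1250) ((-209 / 100) + (2643 / 50) * m) m ≤ (4589 / 5000) := by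
  have x1 : 0 ≤ m - (7 / 1000) := by linarith
  have x2 : 0 ≤ (9 / 1000) - m := by linarith
  obtain ⟨c1, c2⟩ := lg_341_500
  obtain ⟨l1, l2⟩ := lg_7_1000
  have hw : 0 ≤ ((-1061 / 2500) + (76647 / 1250) * m) := by nlinarith
  have hN : ((1067423 / 500000) + (-205826 / 625) * m + (27515021 / 10000) * m ^ 2) * (m + (7 / 1000)) ^ 3 ≤ ((-1061 / 2500) + (76647 / 1250) * m) * ((-2480923 / 500000) * (m + (7 / 1000)) ^ 3 + 2 * (m - (7 / 1000)) * (m + (7 / 1000)) ^ 2 +
      2 / 3 * (m - (7 / 1000)) ^ 3) := by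
    have key : ((-1061 / 2500) + (76647 / 1250) * m) * ((-2480923 / 500000) * (m + (7 / 1000)) ^ 3 + 2 * (m - (7 / 1000)) * (m + (7 / 1000)) ^ 2 +
      2 / 3 * (m - (7 / 1000)) ^ 3) - ((1067423 / 500000) + (-205826 / 625) * m + (27515021 / 10000) * m ^ 2) * (m + (7 / 1000)) ^ 3 = (4994775206463 / 5000000) * ((m - (7 / 1000)) ^ 0 * ((9 / 1000) - m) ^ 5) + (1617374655911 / 500000) * ((m - (7 / 1000)) ^ 1 * ((9 / 1000) - m) ^ 4) + (20583724883043 / 5000000) * ((m - (7 / 1000)) ^ 2 * ((9 / 1000) - m) ^ 3) + (6094105873901 / 1875000) * ((m - (7 / 1000)) ^ 3 * ((9 / 1000) - m) ^ 2) + (494910470363 / 234375) * ((m - (7 / 1000)) ^ 4 * ((9 / 1000) - m) ^ 1) + (173350174558 / 234375) * ((m - (7 / 1000)) ^ 5 * ((9 / 1000) - m) ^ 0) := by ring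
    rw [← sub_nonneg, key]
    positivity
  have hL := core (by norm_num : (0 : ℝ) < (7 / 1000)) h1 (by linarith : (-2480923 / 500000) ≤ Real.log (7 / 1000)) hw hN
  unfold G al ga be
  rw [F_0 (by linarith)]
  linarith

lemma segM2 {m : ℝ} (h1 : (9 / 1000) ≤ m) (h2 : m ≤ (3 / 50)) :
    G (341 / 500) 0 (-2403 / 1000) ((-1623 / 1000) + (1623 / 1000) * m) m ≤ (4589 / 5000) := by
  have x1 : 0 ≤ m - (9 / 1000) := by linarith
  have x2 : 0 ≤ (3 / 50) - m := by linarith
  obtain ⟨c1, c2⟩ := lg_341_500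
  obtain ⟨l1, l2⟩ := lg_9_1000
  have hw : 0 ≤ ((2933 / 25000) + (47067 / 25000) * m) := by nlinarith
  have hN : ((-25061 / 40000) + (-648299 / 500000) * m + (1970969 / 1000000) * m ^ 2) * (m + (9 / 1000)) ^ 3 ≤ ((2933 / 25000) + (47067 / 25000) * m) * ((-4710531 / 1000000) * (m + (9 / 1000)) ^ 3 + 2 * (m - (9 / 1000)) * (m + (9 / 1000)) ^ 2 +
      2 / 3 * (m - (9 / 1000)) ^ 3) := by
    have key : ((2933 / 25000) + (47067 / 25000) * m) * ((-4710531 / 1000000) * (m + (9 / 1000)) ^ 3 + 2 * (m - (9 / 1000)) * (m + (9 / 1000)) ^ 2 +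
      2 / 3 * (m - (9 / 1000)) ^ 3) - ((-25061 / 40000) + (-648299 / 500000) * m + (1970969 / 1000000) * m ^ 2) * (m + (9 / 1000)) ^ 3 = (209228777373 / 2218526562500) * ((m - (9 / 1000)) ^ 0 * ((3 / 50) - m) ^ 5) + (1680674902457 / 221852656250) * ((m - (9 / 1000)) ^ 1 * ((3 / 50) - m) ^ 4) + (770370668476433 / 13311159375000) * ((m - (9 / 1000)) ^ 2 * ((3 / 50) - m) ^ 3) + (19449896647576273 / 119800434375000) * ((m - (9 / 1000)) ^ 3 * ((3 / 50) - m) ^ 2) + (122776169881295767 / 958403475000000) * ((m - (9 / 1000)) ^ 4 * ((3 / 50) - m) ^ 1) + (679228627274119 / 47920173750000) * ((m - (9 / 1000)) ^ 5 * ((3 / 50) - m) ^ 0) := by ring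
    rw [← sub_nonneg, key]
    positivity
  have hL := core (by norm_num : (0 : ℝ) < (9 / 1000)) h1 (by linarith : (-4710531 / 1000000) ≤ Real.log (9 / 1000)) hw hN
  unfold G al ga be
  rw [F_0 (by linarith)]
  linarith

lemma segM3 {m : ℝ} (h1 : (3 / 50) ≤ m) (h2 : m ≤ (13 / 100)) :
    G (341 / 500) 0 (-2403 / 1000) ((-1623 / 1000) + (1623 / 1000) * m) m ≤ (4589 / 5000) := by
  have x1 : 0 ≤ m - (3 / 50) := by linarith
  have x2 : 0 ≤ (13 / 100) - m := by linarith
  obtain ⟨c1, c2⟩ := lg_341_500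
  obtain ⟨l1, l2⟩ := lg_3_50
  have hw : 0 ≤ ((3677957 / 25000000) + (46322043 / 25000000) * m) := by nlinarith
  have hN : ((-370078861 / 500000000) + (-343163639 / 500000000) * m + (1474331 / 1000000) * m ^ 2) * (m + (3 / 50)) ^ 3 ≤ ((3677957 / 25000000) + (46322043 / 25000000) * m) * ((-2813411 / 1000000) * (m + (3 / 50)) ^ 3 + 2 * (m - (3 / 50)) * (m + (3 / 50)) ^ 2 +
      2 / 3 * (m - (3 / 50)) ^ 3) := by
    have key : ((3677957 / 25000000) + (46322043 / 25000000) * m) * ((-2813411 / 1000000) * (m + (3 / 50)) ^ 3 + 2 * (m - (3 / 50)) * (m + (3 / 50)) ^ 2 +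
      2 / 3 * (m - (3 / 50)) ^ 3) - ((-370078861 / 500000000) + (-343163639 / 500000000) * m + (1474331 / 1000000) * m ^ 2) * (m + (3 / 50)) ^ 3 = (1665579748346037 / 32826171875000) * ((m - (3 / 50)) ^ 0 * ((13 / 100) - m) ^ 5) + (8240668530396921 / 26260937500000) * ((m - (3 / 50)) ^ 1 * ((13 / 100) - m) ^ 4) + (376483012245864273 / 525218750000000) * ((m - (3 / 50)) ^ 2 * ((13 / 100) - m) ^ 3) + (4718240801255009621 / 6302625000000000) * ((m - (3 / 50)) ^ 3 * ((13 / 100) - m) ^ 2) + (4337549521938956489 / 12605250000000000) * ((m - (3 / 50)) ^ 4 * ((13 / 100) - m) ^ 1) + (602137631266285927 / 12605250000000000) * ((m - (3 / 50)) ^ 5 * ((13 / 100) - m) ^ 0) := by ring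
    rw [← sub_nonneg, key]
    positivity
  have hL := core (by norm_num : (0 : ℝ) < (3 / 50)) h1 (by linarith : (-2813411 / 1000000) ≤ Real.log (3 / 50)) hw hN
  obtain ⟨g, g1, g2, hF⟩ := F_1
  have hg := gam (s := ((-1623 / 1000) + (1623 / 1000) * m)) (g := g) (gb := (-35007 / 1000000)) (S := 8) (e := 1 / 1000000) (by linarith) (by linarith) (by linarith) (by linarith)
  unfold G al ga be
  rw [hF m (by linarith) (by linarith)]
  linarith

lemma segM4 {m : ℝ} (h1 : (13 / 100) ≤ m) (h2 : m ≤ (17 / 100)) :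
    G (341 / 500) (3 / 10) (-3573 / 2500) ((-99 / 50) + (219 / 50) * m) m ≤ (4589 / 5000) := by
  have x1 : 0 ≤ m - (13 / 100) := by linarith
  have x2 : 0 ≤ (17 / 100) - m := by linarith
  obtain ⟨c1, c2⟩ := lg_341_500
  obtain ⟨l1, l2⟩ := lg_13_100
  have hw : 0 ≤ ((-325559 / 1250000) + (6250479 / 1250000) * m) := by nlinarith
  have hN : ((7672957 / 25000000) + (-262841467 / 25000000) * m + (746011 / 50000) * m ^ 2) * (m + (13 / 100)) ^ 3 ≤ ((-325559 / 1250000) + (6250479 / 1250000) * m) * ((-2040221 / 1000000) * (m + (13 / 100)) ^ 3 + 2 * (m - (13 / 100)) * (m + (13 / 100)) ^ 2 +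
      2 / 3 * (m - (13 / 100)) ^ 3) := by
    have key : ((-325559 / 1250000) + (6250479 / 1250000) * m) * ((-2040221 / 1000000) * (m + (13 / 100)) ^ 3 + 2 * (m - (13 / 100)) * (m + (13 / 100)) ^ 2 +
      2 / 3 * (m - (13 / 100)) ^ 3) - ((7672957 / 25000000) + (-262841467 / 25000000) * m + (746011 / 50000) * m ^ 2) * (m + (13 / 100)) ^ 3 = (3523491363169401 / 1600000000000) * ((m - (13 / 100)) ^ 0 * ((17 / 100) - m) ^ 5) + (20762045234047 / 2560000000) * ((m - (13 / 100)) ^ 1 * ((17 / 100) - m) ^ 4) + (9654128058272867 / 800000000000) * ((m - (13 / 100)) ^ 2 * ((17 / 100) - m) ^ 3) + (4723716662122243 / 480000000000) * ((m - (13 / 100)) ^ 3 * ((17 / 100) - m) ^ 2) + (933539551736891 / 192000000000) * ((m - (13 / 100)) ^ 4 * ((17 / 100) - m) ^ 1) + (44768901932057 / 38400000000) * ((m - (13 / 100)) ^ 5 * ((17 / 100) - m) ^ 0) := by ring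
    rw [← sub_nonneg, key]
    positivity
  have hL := core (by norm_num : (0 : ℝ) < (13 / 100)) h1 (by linarith : (-2040221 / 1000000) ≤ Real.log (13 / 100)) hw hN
  obtain ⟨g, g1, g2, hF⟩ := F_1
  have hg := gam (s := ((-99 / 50) + (219 / 50) * m)) (g := g) (gb := (-35007 / 1000000)) (S := 8) (e := 1 / 1000000) (by linarith) (by linarith) (by linarith) (by linarith)
  unfold G al ga be
  rw [hF m (by linarith) (by linarith)]
  linarith

lemma segM5 {m : ℝ} (h1 : (17 / 100) ≤ m) (h2 : m ≤ (31 / 100)) :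
    G (341 / 500) (3 / 10) (-3573 / 2500) ((-7 / 4) + 3 * m) m ≤ (4589 / 5000) := by
  have x1 : 0 ≤ m - (17 / 100) := by linarith
  have x2 : 0 ≤ (31 / 100) - m := by linarith
  obtain ⟨c1, c2⟩ := lg_341_500
  obtain ⟨l1, l2⟩ := lg_17_100
  have hw : 0 ≤ ((5211 / 100000) + (83481 / 25000) * m) := by nlinarith
  have hN : ((-214169 / 400000) + (-2160477 / 500000) * m + (57857 / 10000) * m ^ 2) * (m + (17 / 100)) ^ 3 ≤ ((5211 / 100000) + (83481 / 25000) * m) * ((-1771957 / 1000000) * (m + (17 / 100)) ^ 3 + 2 * (m - (17 / 100)) * (m + (17 / 100)) ^ 2 +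
      2 / 3 * (m - (17 / 100)) ^ 3) := by
    have key : ((5211 / 100000) + (83481 / 25000) * m) * ((-1771957 / 1000000) * (m + (17 / 100)) ^ 3 + 2 * (m - (17 / 100)) * (m + (17 / 100)) ^ 2 +
      2 / 3 * (m - (17 / 100)) ^ 3) - ((-214169 / 400000) + (-2160477 / 500000) * m + (57857 / 10000) * m ^ 2) * (m + (17 / 100)) ^ 3 = (13980626170767 / 4201750000000) * ((m - (17 / 100)) ^ 0 * ((31 / 100) - m) ^ 5) + (49072073324653 / 1680700000000) * ((m - (17 / 100)) ^ 1 * ((31 / 100) - m) ^ 4) + (1181013632490891 / 8403500000000) * ((m - (17 / 100)) ^ 2 * ((31 / 100) - m) ^ 3) + (323703332593427 / 1050437500000) * ((m - (17 / 100)) ^ 3 * ((31 / 100) - m) ^ 2) + (38191199508663 / 131304687500) * ((m - (17 / 100)) ^ 4 * ((31 / 100) - m) ^ 1) + (6012535125517 / 65652343750) * ((m - (17 / 100)) ^ 5 * ((31 / 100) - m) ^ 0) := by ring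
    rw [← sub_nonneg, key]
    positivity
  have hL := core (by norm_num : (0 : ℝ) < (17 / 100)) h1 (by linarith : (-1771957 / 1000000) ≤ Real.log (17 / 100)) hw hN
  obtain ⟨g, g1, g2, hF⟩ := F_2
  have hg := gam (s := ((-7 / 4) + 3 * m)) (g := g) (gb := (-74591 / 1000000)) (S := 8) (e := 1 / 1000000) (by linarith) (by linarith) (by linarith) (by linarith)
  unfold G al ga be
  rw [hF m (by linarith) (by linarith)]
  linarith

lemma segM6 {m : ℝ} (h1 : (31 / 100) ≤ m) (h2 : m ≤ (13 / 25)) :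
    G (341 / 500) (3 / 10) (-3573 / 2500) ((-29 / 20) + (203 / 100) * m) m ≤ (4589 / 5000) := by
  have x1 : 0 ≤ m - (31 / 100) := by linarith
  have x2 : 0 ≤ (13 / 25) - m := by linarith
  obtain ⟨c1, c2⟩ := lg_341_500
  obtain ⟨l1, l2⟩ := lg_31_100
  have hw : 0 ≤ ((498409 / 1000000) + (10511137 / 5000000) * m) := by nlinarith
  have hN : ((-1893317 / 1250000) + (-1484757 / 12500000) * m + (41357 / 25000) * m ^ 2) * (m + (31 / 100)) ^ 3 ≤ ((498409 / 1000000) + (10511137 / 5000000) * m) * ((-1171183 / 1000000) * (m + (31 / 100)) ^ 3 + 2 * (m - (31 / 100)) * (m + (31 / 100)) ^ 2 +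
      2 / 3 * (m - (31 / 100)) ^ 3) := by
    have key : ((498409 / 1000000) + (10511137 / 5000000) * m) * ((-1171183 / 1000000) * (m + (31 / 100)) ^ 3 + 2 * (m - (31 / 100)) * (m + (31 / 100)) ^ 2 +
      2 / 3 * (m - (31 / 100)) ^ 3) - ((-1893317 / 1250000) + (-1484757 / 12500000) * m + (41357 / 25000) * m ^ 2) * (m + (31 / 100)) ^ 3 = (678077269482476509 / 25525631250000000) * ((m - (31 / 100)) ^ 0 * ((13 / 25) - m) ^ 5) + (2058467298741827537 / 10210252500000000) * ((m - (31 / 100)) ^ 1 * ((13 / 25) - m) ^ 4) + (58233780434426241781 / 102102525000000000) * ((m - (31 / 100)) ^ 2 * ((13 / 25) - m) ^ 3) + (157336558139401944239 / 204205050000000000) * ((m - (31 / 100)) ^ 3 * ((13 / 25) - m) ^ 2) + (102007919136628407241 / 204205050000000000) * ((m - (31 / 100)) ^ 4 * ((13 / 25) - m) ^ 1) + (3132047714623525987 / 25525631250000000) * ((m - (31 / 100)) ^ 5 * ((13 / 25) - m) ^ 0) := by ring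
    rw [← sub_nonneg, key]
    positivity
  have hL := core (by norm_num : (0 : ℝ) < (31 / 100)) h1 (by linarith : (-1171183 / 1000000) ≤ Real.log (31 / 100)) hw hN
  obtain ⟨g, g1, g2, hF⟩ := F_3
  have hg := gam (s := ((-29 / 20) + (203 / 100) * m)) (g := g) (gb := (-39681 / 250000)) (S := 8) (e := 1 / 1000000) (by linarith) (by linarith) (by linarith) (by linarith)
  unfold G al ga be
  rw [hF m (by linarith) (by linarith)]
  linarith

lemma segM7 {m : ℝ} (h1 : (13 / 25) ≤ m) (h2 : m ≤ (81 / 100)) :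
    G (341 / 500) (3 / 10) (-3573 / 2500) ((-121 / 100) + (157 / 100) * m) m ≤ (4589 / 5000) := by
  have x1 : 0 ≤ m - (13 / 25) := by linarith
  have x2 : 0 ≤ (81 / 100) - m := by linarith
  obtain ⟨c1, c2⟩ := lg_341_500
  obtain ⟨l1, l2⟩ := lg_13_25
  have hw : 0 ≤ ((4206641 / 5000000) + (7517003 / 5000000) * m) := by nlinarith
  have hN : ((-104448167 / 50000000) + (78013639 / 50000000) * m + (23651 / 50000) * m ^ 2) * (m + (13 / 25)) ^ 3 ≤ ((4206641 / 5000000) + (7517003 / 5000000) * m) * ((-653927 / 1000000) * (m + (13 / 25)) ^ 3 + 2 * (m - (13 / 25)) * (m + (13 / 25)) ^ 2 +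
      2 / 3 * (m - (13 / 25)) ^ 3) := by
    have key : ((4206641 / 5000000) + (7517003 / 5000000) * m) * ((-653927 / 1000000) * (m + (13 / 25)) ^ 3 + 2 * (m - (13 / 25)) * (m + (13 / 25)) ^ 2 +
      2 / 3 * (m - (13 / 25)) ^ 3) - ((-104448167 / 50000000) + (78013639 / 50000000) * m + (23651 / 50000) * m ^ 2) * (m + (13 / 25)) ^ 3 = (48515391788358768 / 1001520947265625) * ((m - (13 / 25)) ^ 0 * ((81 / 100) - m) ^ 5) + (118744838532081307 / 400608378906250) * ((m - (13 / 25)) ^ 1 * ((81 / 100) - m) ^ 4) + (11170162863818928957 / 16024335156250000) * ((m - (13 / 25)) ^ 2 * ((81 / 100) - m) ^ 3) + (305051626536559022663 / 384584043750000000) * ((m - (13 / 25)) ^ 3 * ((81 / 100) - m) ^ 2) + (448043513808987012851 / 1025557450000000000) * ((m - (13 / 25)) ^ 4 * ((81 / 100) - m) ^ 1) + (284012395080179914529 / 3076672350000000000) * ((m - (13 / 25)) ^ 5 * ((81 / 100) - m) ^ 0) := by ring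
    rw [← sub_nonneg, key]
    positivity
  have hL := core (by norm_num : (0 : ℝ) < (13 / 25)) h1 (by linarith : (-653927 / 1000000) ≤ Real.log (13 / 25)) hw hN
  obtain ⟨g, g1, g2, hF⟩ := F_4
  have hg := gam (s := ((-121 / 100) + (157 / 100) * m)) (g := g) (gb := (-223227 / 1000000)) (S := 8) (e := 1 / 1000000) (by linarith) (by linarith) (by linarith) (by linarith)
  unfold G al ga be
  rw [hF m (by linarith) (by linarith)]
  linarith

lemma segM8 {m : ℝ} (h1 : (81 / 100) ≤ m) (h2 : m ≤ (5 / 4)) :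
    G (341 / 500) (3 / 10) (-3573 / 2500) ((-101 / 100) + (133 / 100) * m) m ≤ (4589 / 5000) := by
  have x1 : 0 ≤ m - (81 / 100) := by linarith
  have x2 : 0 ≤ (5 / 4) - m := by linarith
  obtain ⟨c1, c2⟩ := lg_341_500
  obtain ⟨l1, l2⟩ := lg_81_100
  have hw : 0 ≤ ((1428087 / 1250000) + (1411529 / 1250000) * m) := by nlinarith
  have hN : ((-122819933 / 50000000) + (119662089 / 50000000) * m + (67 / 12500) * m ^ 2) * (m + (81 / 100)) ^ 3 ≤ ((1428087 / 1250000) + (1411529 / 1250000) * m) * ((-105361 / 500000) * (m + (81 / 100)) ^ 3 + 2 * (m - (81 / 100)) * (m + (81 / 100)) ^ 2 +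
      2 / 3 * (m - (81 / 100)) ^ 3) := by
    have key : ((1428087 / 1250000) + (1411529 / 1250000) * m) * ((-105361 / 500000) * (m + (81 / 100)) ^ 3 + 2 * (m - (81 / 100)) * (m + (81 / 100)) ^ 2 +
      2 / 3 * (m - (81 / 100)) ^ 3) - ((-122819933 / 50000000) + (119662089 / 50000000) * m + (67 / 12500) * m ^ 2) * (m + (81 / 100)) ^ 3 = (2686148091192890151 / 128840800000000000) * ((m - (81 / 100)) ^ 0 * ((5 / 4) - m) ^ 5) + (2831020462677732273 / 25768160000000000) * ((m - (81 / 100)) ^ 1 * ((5 / 4) - m) ^ 4) + (14004711629382722373 / 64420400000000000) * ((m - (81 / 100)) ^ 2 * ((5 / 4) - m) ^ 3) + (12983542146348520927 / 64420400000000000) * ((m - (81 / 100)) ^ 3 * ((5 / 4) - m) ^ 2) + (33590065905640252141 / 386522400000000000) * ((m - (81 / 100)) ^ 4 * ((5 / 4) - m) ^ 1) + (212325935087765887 / 15460896000000000) * ((m - (81 / 100)) ^ 5 * ((5 / 4) - m) ^ 0) := by ring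
    rw [← sub_nonneg, key]
    positivity
  have hL := core (by norm_num : (0 : ℝ) < (81 / 100)) h1 (by linarith : (-105361 / 500000) ≤ Real.log (81 / 100)) hw hN
  obtain ⟨g, g1, g2, hF⟩ := F_5
  have hg := gam (s := ((-101 / 100) + (133 / 100) * m)) (g := g) (gb := (-288933 / 1000000)) (S := 8) (e := 1 / 1000000) (by linarith) (by linarith) (by linarith) (by linarith)
  unfold G al ga be
  rw [hF m (by linarith) (by linarith)]
  linarith

lemma segM9 {m : ℝ} (h1 : (5 / 4) ≤ m) (h2 : m ≤ (17 / 10)) :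
    G (341 / 500) (3 / 10) (-3573 / 2500) ((-43 / 50) + (121 / 100) * m) m ≤ (4589 / 5000) := by
  have x1 : 0 ≤ m - (5 / 4) := by linarith
  have x2 : 0 ≤ (17 / 10) - m := by linarith
  obtain ⟨c1, c2⟩ := lg_341_500
  obtain ⟨l1, l2⟩ := lg_5_4
  have hw : 0 ≤ ((1678657 / 1250000) + (2311221 / 2500000) * m) := by nlinarith
  have hN : ((-65425157 / 25000000) + (136073829 / 50000000) * m + (-4059 / 25000) * m ^ 2) * (m + (5 / 4)) ^ 3 ≤ ((1678657 / 1250000) + (2311221 / 2500000) * m) * ((223143 / 1000000) * (m + (5 / 4)) ^ 3 + 2 * (m - (5 / 4)) * (m + (5 / 4)) ^ 2 +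
      2 / 3 * (m - (5 / 4)) ^ 3) := by
    have key : ((1678657 / 1250000) + (2311221 / 2500000) * m) * ((223143 / 1000000) * (m + (5 / 4)) ^ 3 + 2 * (m - (5 / 4)) * (m + (5 / 4)) ^ 2 +
      2 / 3 * (m - (5 / 4)) ^ 3) - ((-65425157 / 25000000) + (136073829 / 50000000) * m + (-4059 / 25000) * m ^ 2) * (m + (5 / 4)) ^ 3 = (263788959623 / 11809800000) * ((m - (5 / 4)) ^ 0 * ((17 / 10) - m) ^ 5) + (48217260199841 / 590490000000) * ((m - (5 / 4)) ^ 1 * ((17 / 10) - m) ^ 4) + (2960314200956879 / 29524500000000) * ((m - (5 / 4)) ^ 2 * ((17 / 10) - m) ^ 3) + (73550984023609627 / 1476225000000000) * ((m - (5 / 4)) ^ 3 * ((17 / 10) - m) ^ 2) + (127609625520625303 / 7381125000000000) * ((m - (5 / 4)) ^ 4 * ((17 / 10) - m) ^ 1) + (31642001181579709 / 3690562500000000) * ((m - (5 / 4)) ^ 5 * ((17 / 10) - m) ^ 0) := by ring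
    rw [← sub_nonneg, key]
    positivity
  have hL := core (by norm_num : (0 : ℝ) < (5 / 4)) h1 (by linarith : (223143 / 1000000) ≤ Real.log (5 / 4)) hw hN
  obtain ⟨g, g1, g2, hF⟩ := F_6
  have hg := gam (s := ((-43 / 50) + (121 / 100) * m)) (g := g) (gb := (-321949 / 1000000)) (S := 8) (e := 1 / 1000000) (by linarith) (by linarith) (by linarith) (by linarith)
  unfold G al ga be
  rw [hF m (by linarith) (by linarith)]
  linarith

lemma segM10 {m : ℝ} (h1 : (17 / 10) ≤ m) (h2 : m ≤ (169 / 50)) :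
    G (341 / 500) 0 (-2403 / 1000) ((-1623 / 1000) + (1623 / 1000) * m) m ≤ (4589 / 5000) := by
  have x1 : 0 ≤ m - (17 / 10) := by linarith
  have x2 : 0 ≤ (169 / 50) - m := by linarith
  obtain ⟨c1, c2⟩ := lg_341_500
  obtain ⟨l1, l2⟩ := lg_17_10
  have hw : 0 ≤ ((18999077 / 25000000) + (31000923 / 25000000) * m) := by nlinarith
  have hN : ((-835785727 / 500000000) + (747398227 / 500000000) * m + (224621 / 1000000) * m ^ 2) * (m + (17 / 10)) ^ 3 ≤ ((18999077 / 25000000) + (31000923 / 25000000) * m) * ((132657 / 250000) * (m + (17 / 10)) ^ 3 + 2 * (m - (17 / 10)) * (m + (17 / 10)) ^ 2 +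
      2 / 3 * (m - (17 / 10)) ^ 3) := by
    have key : ((18999077 / 25000000) + (31000923 / 25000000) * m) * ((132657 / 250000) * (m + (17 / 10)) ^ 3 + 2 * (m - (17 / 10)) * (m + (17 / 10)) ^ 2 +
      2 / 3 * (m - (17 / 10)) ^ 3) - ((-835785727 / 500000000) + (747398227 / 500000000) * m + (224621 / 1000000) * m ^ 2) * (m + (17 / 10)) ^ 3 = (957301043869201 / 104552985600000000) * ((m - (17 / 10)) ^ 0 * ((169 / 50) - m) ^ 5) + (50861150088902903 / 104552985600000000) * ((m - (17 / 10)) ^ 1 * ((169 / 50) - m) ^ 4) + (3352920877712115707 / 1306912320000000000) * ((m - (17 / 10)) ^ 2 * ((169 / 50) - m) ^ 3) + (32746765260876113761 / 6534561600000000000) * ((m - (17 / 10)) ^ 3 * ((169 / 50) - m) ^ 2) + (253408927116605201657 / 65345616000000000000) * ((m - (17 / 10)) ^ 4 * ((169 / 50) - m) ^ 1) + (47719415128767785647 / 65345616000000000000) * ((m - (17 / 10)) ^ 5 * ((169 / 50) - m) ^ 0) := by ring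
    rw [← sub_nonneg, key]
    positivity
  have hL := core (by norm_num : (0 : ℝ) < (17 / 10)) h1 (by linarith : (132657 / 250000) ≤ Real.log (17 / 10)) hw hN
  obtain ⟨g, g1, g2, hF⟩ := F_6
  have hg := gam (s := ((-1623 / 1000) + (1623 / 1000) * m)) (g := g) (gb := (-321949 / 1000000)) (S := 8) (e := 1 / 1000000) (by linarith) (by linarith) (by linarith) (by linarith)
  unfold G al ga be
  rw [hF m (by linarith) (by linarith)]
  linarith

lemma segM11 {m : ℝ} (h1 : (169 / 50) ≤ m) (h2 : m ≤ (9 / 2)) :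
    G (341 / 500) 0 (-2403 / 1000) ((-1623 / 1000) + (1623 / 1000) * m) m ≤ (4589 / 5000) := by
  have x1 : 0 ≤ m - (169 / 50) := by linarith
  have x2 : 0 ≤ (9 / 2) - m := by linarith
  obtain ⟨c1, c2⟩ := lg_341_500
  obtain ⟨l1, l2⟩ := lg_169_50
  have hw : 0 ≤ ((30519131 / 25000000) + (19480869 / 25000000) * m) := by nlinarith
  have hN : ((-19639699 / 12500000) + (38268323 / 25000000) * m + (88289 / 1000000) * m ^ 2) * (m + (169 / 50)) ^ 3 ≤ ((30519131 / 25000000) + (19480869 / 25000000) * m) * ((9743 / 8000) * (m + (169 / 50)) ^ 3 + 2 * (m - (169 / 50)) * (m + (169 / 50)) ^ 2 +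
      2 / 3 * (m - (169 / 50)) ^ 3) := by
    have key : ((30519131 / 25000000) + (19480869 / 25000000) * m) * ((9743 / 8000) * (m + (169 / 50)) ^ 3 + 2 * (m - (169 / 50)) * (m + (169 / 50)) ^ 2 +
      2 / 3 * (m - (169 / 50)) ^ 3) - ((-19639699 / 12500000) + (38268323 / 25000000) * m + (88289 / 1000000) * m ^ 2) * (m + (169 / 50)) ^ 3 = (4008417169289328757 / 275365888000000000) * ((m - (169 / 50)) ^ 0 * ((9 / 2) - m) ^ 5) + (3994427592159822961 / 55073177600000000) * ((m - (169 / 50)) ^ 1 * ((9 / 2) - m) ^ 4) + (18754106834379909161 / 137682944000000000) * ((m - (169 / 50)) ^ 2 * ((9 / 2) - m) ^ 3) + (47658353475236476367 / 413048832000000000) * ((m - (169 / 50)) ^ 3 * ((9 / 2) - m) ^ 2) + (31941626698481992187 / 826097664000000000) * ((m - (169 / 50)) ^ 4 * ((9 / 2) - m) ^ 1) + (47418521724089611 / 33043906560000000) * ((m - (169 / 50)) ^ 5 * ((9 / 2) - m) ^ 0) := by ring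
    rw [← sub_nonneg, key]
    positivity
  have hL := core (by norm_num : (0 : ℝ) < (169 / 50)) h1 (by linarith : (9743 / 8000) ≤ Real.log (169 / 50)) hw hN
  obtain ⟨g, g1, g2, hF⟩ := F_7
  have hg := gam (s := ((-1623 / 1000) + (1623 / 1000) * m)) (g := g) (gb := (-14551 / 50000)) (S := 8) (e := 1 / 1000000) (by linarith) (by linarith) (by linarith) (by linarith)
  unfold G al ga be
  rw [hF m (by linarith) trivial]
  linarith

lemma segM12 {m : ℝ} (h1 : (9 / 2) ≤ m) (h2 : m ≤ (47 / 10)) :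
    G (341 / 500) (-11 / 10) (-7467 / 1250) ((47 / 50) + (26 / 25) * m) m ≤ (4589 / 5000) := by
  have x1 : 0 ≤ m - (9 / 2) := by linarith
  have x2 : 0 ≤ (47 / 10) - m := by linarith
  obtain ⟨c1, c2⟩ := lg_341_500
  obtain ⟨l1, l2⟩ := lg_9_2
  have hw : 0 ≤ ((3064141 / 1250000) + (156039 / 312500) * m) := by nlinarith
  have hN : ((-18671341 / 2500000) + (2889201 / 625000) * m + (-3099 / 10000) * m ^ 2) * (m + (9 / 2)) ^ 3 ≤ ((3064141 / 1250000) + (156039 / 312500) * m) * ((1504077 / 1000000) * (m + (9 / 2)) ^ 3 + 2 * (m - (9 / 2)) * (m + (9 / 2)) ^ 2 +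
      2 / 3 * (m - (9 / 2)) ^ 3) := by
    have key : ((3064141 / 1250000) + (156039 / 312500) * m) * ((1504077 / 1000000) * (m + (9 / 2)) ^ 3 + 2 * (m - (9 / 2)) * (m + (9 / 2)) ^ 2 +
      2 / 3 * (m - (9 / 2)) ^ 3) - ((-18671341 / 2500000) + (2889201 / 625000) * m + (-3099 / 10000) * m ^ 2) * (m + (9 / 2)) ^ 3 = (7591318234119 / 400000000) * ((m - (9 / 2)) ^ 0 * ((47 / 10) - m) ^ 5) + (19649492363637 / 250000000) * ((m - (9 / 2)) ^ 1 * ((47 / 10) - m) ^ 4) + (1512463033801683 / 10000000000) * ((m - (9 / 2)) ^ 2 * ((47 / 10) - m) ^ 3) + (2607731348332649 / 15000000000) * ((m - (9 / 2)) ^ 3 * ((47 / 10) - m) ^ 2) + (21281640756179159 / 187500000000) * ((m - (9 / 2)) ^ 4 * ((47 / 10) - m) ^ 1) + (2932525020784067 / 93750000000) * ((m - (9 / 2)) ^ 5 * ((47 / 10) - m) ^ 0) := by ring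
    rw [← sub_nonneg, key]
    positivity
  have hL := core (by norm_num : (0 : ℝ) < (9 / 2)) h1 (by linarith : (1504077 / 1000000) ≤ Real.log (9 / 2)) hw hN
  obtain ⟨g, g1, g2, hF⟩ := F_7
  have hg := gam (s := ((47 / 50) + (26 / 25) * m)) (g := g) (gb := (-14551 / 50000)) (S := 8) (e := 1 / 1000000) (by linarith) (by linarith) (by linarith) (by linarith)
  unfold G al ga be
  rw [hF m (by linarith) trivial]
  linarith

lemma segM13 {m : ℝ} (h1 : (47 / 10) ≤ m) :
    G (341 / 500) (-11 / 10) (-7467 / 1250) (1 + (101 / 100) * m) m ≤ (4589 / 5000) := by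
  have x1 : 0 ≤ m - (47 / 10) := by linarith
  obtain ⟨c1, c2⟩ := lg_341_500
  obtain ⟨l1, l2⟩ := lg_47_10
  have hw : 0 ≤ ((62003 / 25000) + (1212303 / 2500000) * m) := by nlinarith
  have hN : ((-1862307 / 250000) + (230863121 / 50000000) * m + (-39 / 125) * m ^ 2) * (m + (47 / 10)) ^ 3 ≤ ((62003 / 25000) + (1212303 / 2500000) * m) * ((773781 / 500000) * (m + (47 / 10)) ^ 3 + 2 * (m - (47 / 10)) * (m + (47 / 10)) ^ 2 +
      2 / 3 * (m - (47 / 10)) ^ 3) := by
    have key : ((62003 / 25000) + (1212303 / 2500000) * m) * ((773781 / 500000) * (m + (47 / 10)) ^ 3 + 2 * (m - (47 / 10)) * (m + (47 / 10)) ^ 2 +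
      2 / 3 * (m - (47 / 10)) ^ 3) - ((-1862307 / 250000) + (230863121 / 50000000) * m + (-39 / 125) * m ^ 2) * (m + (47 / 10)) ^ 3 = (7019106246285883 / 1562500000000000) * (m - (47 / 10)) ^ 0 + (4169304882016389 / 62500000000000) * (m - (47 / 10)) ^ 1 + (17271788520908483 / 62500000000000) * (m - (47 / 10)) ^ 2 + (3273579911637641 / 37500000000000) * (m - (47 / 10)) ^ 3 + (11446883002643 / 1250000000000) * (m - (47 / 10)) ^ 4 + (39 / 125) * (m - (47 / 10)) ^ 5 := by ring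
    rw [← sub_nonneg, key]
    positivity
  have hL := core (by norm_num : (0 : ℝ) < (47 / 10)) h1 (by linarith : (773781 / 500000) ≤ Real.log (47 / 10)) hw hN
  obtain ⟨g, g1, g2, hF⟩ := F_7
  have hg := gaminf (s := (1 + (101 / 100) * m)) (g := g) (gb := (-14551 / 50000)) (e := 1 / 1000000) (by linarith) (by linarith)
  unfold G al ga be
  rw [hF m (by linarith) trivial]
  linarith

end Vale.Agent.P254.S929
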