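import Vale.Agent.P254.S.H929.SegBase

/-!
# P254, block S: segments of the certificate (helper929, generated)
-/

noncomputable section

namespace Vale.Agent.P254.S929

open Real Set

lemma segR0 {m : ℝ} (h1 : 0 < m) (h2 : m ≤ (3 / 50)) :
    G (421 / 500) (3 / 10) (-6369 / 5000) ((-50 / 29) + 0 * m) m ≤ (4589 / 5000) := by
  have x1 : 0 ≤ m - 0 := by linarith
  have x2 : 0 ≤ (3 / 50) - m := by linarith
  obtain ⟨c1, c2⟩ := lg_421_500
  have hL : ((-68128391 / 210250000) + (212091 / 72500) * m + (7477 / 10000) * m ^ 2) ≤ 0 := by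
    have key : -((-68128391 / 210250000) + (212091 / 72500) * m + (7477 / 10000) * m ^ 2) = (68128391 / 756900) * (m ^ 0 * ((3 / 50) - m) ^ 2) + (24838237 / 189225) * (m ^ 1 * ((3 / 50) - m) ^ 1) + (3065862287 / 75690000) * (m ^ 2 * ((3 / 50) - m) ^ 0) := by ring
    rw [← neg_nonneg, key]
    positivity
  unfold G al ga be
  rw [F_0 (by linarith)]
  linarith

lemma segR1 {m : ℝ} (h1 : (3 / 50) ≤ m) (h2 : m ≤ (7 / 50)) :
    G (421 / 500) (3 / 10) (-6369 / 5000) ((-203 / 100) + (467 / 100) * m) m ≤ (4589 / 5000) := by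
  have x1 : 0 ≤ m - (3 / 50) := by linarith
  have x2 : 0 ≤ (7 / 50) - m := by linarith
  obtain ⟨c1, c2⟩ := lg_421_500
  obtain ⟨l1, l2⟩ := lg_3_50
  have hw : 0 ≤ ((-793823 / 2500000) + (13328647 / 2500000) * m) := by nlinarith
  have hN : ((24928379 / 50000000) + (-601692731 / 50000000) * m + (864909 / 50000) * m ^ 2) * (m + (3 / 50)) ^ 3 ≤ ((-793823 / 2500000) + (13328647 / 2500000) * m) * ((-2813411 / 1000000) * (m + (3 / 50)) ^ 3 + 2 * (m - (3 / 50)) * (m + (3 / 50)) ^ 2 +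
      2 / 3 * (m - (3 / 50)) ^ 3) := by
    have key : ((-793823 / 2500000) + (13328647 / 2500000) * m) * ((-2813411 / 1000000) * (m + (3 / 50)) ^ 3 + 2 * (m - (3 / 50)) * (m + (3 / 50)) ^ 2 +
      2 / 3 * (m - (3 / 50)) ^ 3) - ((24928379 / 50000000) + (-601692731 / 50000000) * m + (864909 / 50000) * m ^ 2) * (m + (3 / 50)) ^ 3 = (521624148513273 / 6400000000000) * ((m - (3 / 50)) ^ 0 * ((7 / 50) - m) ^ 5) + (736247464263 / 2048000000) * ((m - (3 / 50)) ^ 1 * ((7 / 50) - m) ^ 4) + (1759884375648531 / 3200000000000) * ((m - (3 / 50)) ^ 2 * ((7 / 50) - m) ^ 3) + (638587967098343 / 1920000000000) * ((m - (3 / 50)) ^ 3 * ((7 / 50) - m) ^ 2) + (63454652284187 / 768000000000) * ((m - (3 / 50)) ^ 4 * ((7 / 50) - m) ^ 1) + (240587472231 / 51200000000) * ((m - (3 / 50)) ^ 5 * ((7 / 50) - m) ^ 0) := by ring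
    rw [← sub_nonneg, key]
    positivity
  have hL := core (by norm_num : (0 : ℝ) < (3 / 50)) h1 (by linarith : (-2813411 / 1000000) ≤ Real.log (3 / 50)) hw hN
  obtain ⟨g, g1, g2, hF⟩ := F_1
  have hg := gam (s := ((-203 / 100) + (467 / 100) * m)) (g := g) (gb := (-35007 / 1000000)) (S := 8) (e := 1 / 1000000) (by linarith) (by linarith) (by linarith) (by linarith)
  unfold G al ga be
  rw [hF m (by linarith) (by linarith)]
  linarith

lemma segR2 {m : ℝ} (h1 : (7 / 50) ≤ m) (h2 : m ≤ (17 / 100)) :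
    G (421 / 500) 0 (-1101 / 500) ((-1547 / 1000) + (1547 / 1000) * m) m ≤ (4589 / 5000) := by
  have x1 : 0 ≤ m - (7 / 50) := by linarith
  have x2 : 0 ≤ (17 / 100) - m := by linarith
  obtain ⟨c1, c2⟩ := lg_421_500
  obtain ⟨l1, l2⟩ := lg_7_50
  have hw : 0 ≤ ((5847073 / 25000000) + (44152927 / 25000000) * m) := by nlinarith
  have hN : ((-452753329 / 500000000) + (-248192171 / 500000000) * m + (1398987 / 1000000) * m ^ 2) * (m + (7 / 50)) ^ 3 ≤ ((5847073 / 25000000) + (44152927 / 25000000) * m) * ((-1966113 / 1000000) * (m + (7 / 50)) ^ 3 + 2 * (m - (7 / 50)) * (m + (7 / 50)) ^ 2 +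
      2 / 3 * (m - (7 / 50)) ^ 3) := by
    have key : ((5847073 / 25000000) + (44152927 / 25000000) * m) * ((-1966113 / 1000000) * (m + (7 / 50)) ^ 3 + 2 * (m - (7 / 50)) * (m + (7 / 50)) ^ 2 +
      2 / 3 * (m - (7 / 50)) ^ 3) - ((-452753329 / 500000000) + (-248192171 / 500000000) * m + (1398987 / 1000000) * m ^ 2) * (m + (7 / 50)) ^ 3 = (688600848364499 / 474609375000) * ((m - (7 / 50)) ^ 0 * ((17 / 100) - m) ^ 5) + (3641395718269127 / 379687500000) * ((m - (7 / 50)) ^ 1 * ((17 / 100) - m) ^ 4) + (179547724974798551 / 7593750000000) * ((m - (7 / 50)) ^ 2 * ((17 / 100) - m) ^ 3) + (850943308701925289 / 30375000000000) * ((m - (7 / 50)) ^ 3 * ((17 / 100) - m) ^ 2) + (984754279015265021 / 60750000000000) * ((m - (7 / 50)) ^ 4 * ((17 / 100) - m) ^ 1) + (224682066617148403 / 60750000000000) * ((m - (7 / 50)) ^ 5 * ((17 / 100) - m) ^ 0) := by ring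
    rw [← sub_nonneg, key]
    positivity
  have hL := core (by norm_num : (0 : ℝ) < (7 / 50)) h1 (by linarith : (-1966113 / 1000000) ≤ Real.log (7 / 50)) hw hN
  obtain ⟨g, g1, g2, hF⟩ := F_1
  have hg := gam (s := ((-1547 / 1000) + (1547 / 1000) * m)) (g := g) (gb := (-35007 / 1000000)) (S := 8) (e := 1 / 1000000) (by linarith) (by linarith) (by linarith) (by linarith)
  unfold G al ga be
  rw [hF m (by linarith) (by linarith)]
  linarith

lemma segR3 {m : ℝ} (h1 : (17 / 100) ≤ m) (h2 : m ≤ (31 / 100)) :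
    G (421 / 500) 0 (-1101 / 500) ((-1547 / 1000) + (1547 / 1000) * m) m ≤ (4589 / 5000) := by
  have x1 : 0 ≤ m - (17 / 100) := by linarith
  have x2 : 0 ≤ (31 / 100) - m := by linarith
  obtain ⟨c1, c2⟩ := lg_421_500
  obtain ⟨l1, l2⟩ := lg_17_100
  have hw : 0 ≤ ((6951631 / 25000000) + (43048369 / 25000000) * m) := by nlinarith
  have hN : ((-513989777 / 500000000) + (-57007723 / 500000000) * m + (1139091 / 1000000) * m ^ 2) * (m + (17 / 100)) ^ 3 ≤ ((6951631 / 25000000) + (43048369 / 25000000) * m) * ((-1771957 / 1000000) * (m + (17 / 100)) ^ 3 + 2 * (m - (17 / 100)) * (m + (17 / 100)) ^ 2 +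
      2 / 3 * (m - (17 / 100)) ^ 3) := by
    have key : ((6951631 / 25000000) + (43048369 / 25000000) * m) * ((-1771957 / 1000000) * (m + (17 / 100)) ^ 3 + 2 * (m - (17 / 100)) * (m + (17 / 100)) ^ 2 +
      2 / 3 * (m - (17 / 100)) ^ 3) - ((-513989777 / 500000000) + (-57007723 / 500000000) * m + (1139091 / 1000000) * m ^ 2) * (m + (17 / 100)) ^ 3 = (37090222908486607 / 16807000000000000) * ((m - (17 / 100)) ^ 0 * ((31 / 100) - m) ^ 5) + (3603239312605509 / 210087500000000) * ((m - (17 / 100)) ^ 1 * ((31 / 100) - m) ^ 4) + (658253416114670793 / 16807000000000000) * ((m - (17 / 100)) ^ 2 * ((31 / 100) - m) ^ 3) + (85692719197533921 / 2100875000000000) * ((m - (17 / 100)) ^ 3 * ((31 / 100) - m) ^ 2) + (17651812584978697 / 787828125000000) * ((m - (17 / 100)) ^ 4 * ((31 / 100) - m) ^ 1) + (1850860308054473 / 393914062500000) * ((m - (17 / 100)) ^ 5 * ((31 / 100) - m) ^ 0) := by ring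
    rw [← sub_nonneg, key]
    positivity
  have hL := core (by norm_num : (0 : ℝ) < (17 / 100)) h1 (by linarith : (-1771957 / 1000000) ≤ Real.log (17 / 100)) hw hN
  obtain ⟨g, g1, g2, hF⟩ := F_2
  have hg := gam (s := ((-1547 / 1000) + (1547 / 1000) * m)) (g := g) (gb := (-74591 / 1000000)) (S := 8) (e := 1 / 1000000) (by linarith) (by linarith) (by linarith) (by linarith)
  unfold G al ga be
  rw [hF m (by linarith) (by linarith)]
  linarith

lemma segR4 {m : ℝ} (h1 : (31 / 100) ≤ m) (h2 : m ≤ (13 / 25)) :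
    G (421 / 500) 0 (-1101 / 500) ((-1547 / 1000) + (1547 / 1000) * m) m ≤ (4589 / 5000) := by
  have x1 : 0 ≤ m - (31 / 100) := by linarith
  have x2 : 0 ≤ (13 / 25) - m := by linarith
  obtain ⟨c1, c2⟩ := lg_421_500
  obtain ⟨l1, l2⟩ := lg_31_100
  have hw : 0 ≤ ((19897887 / 50000000) + (80102113 / 50000000) * m) := by nlinarith
  have hN : ((-80517941 / 62500000) + (66630257 / 125000000) * m + (752341 / 1000000) * m ^ 2) * (m + (31 / 100)) ^ 3 ≤ ((19897887 / 50000000) + (80102113 / 50000000) * m) * ((-1171183 / 1000000) * (m + (31 / 100)) ^ 3 + 2 * (m - (31 / 100)) * (m + (31 / 100)) ^ 2 +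
      2 / 3 * (m - (31 / 100)) ^ 3) := by
    have key : ((19897887 / 50000000) + (80102113 / 50000000) * m) * ((-1171183 / 1000000) * (m + (31 / 100)) ^ 3 + 2 * (m - (31 / 100)) * (m + (31 / 100)) ^ 2 +
      2 / 3 * (m - (31 / 100)) ^ 3) - ((-80517941 / 62500000) + (66630257 / 125000000) * m + (752341 / 1000000) * m ^ 2) * (m + (31 / 100)) ^ 3 = (449019496078649141 / 255256312500000000) * ((m - (31 / 100)) ^ 0 * ((13 / 25) - m) ^ 5) + (1205650487616623353 / 102102525000000000) * ((m - (31 / 100)) ^ 1 * ((13 / 25) - m) ^ 4) + (25876297945835022269 / 1021025250000000000) * ((m - (31 / 100)) ^ 2 * ((13 / 25) - m) ^ 3) + (53220508734634607911 / 2042050500000000000) * ((m - (31 / 100)) ^ 3 * ((13 / 25) - m) ^ 2) + (29645125218844803209 / 2042050500000000000) * ((m - (31 / 100)) ^ 4 * ((13 / 25) - m) ^ 1) + (382502517309779119 / 127628156250000000) * ((m - (31 / 100)) ^ 5 * ((13 / 25) - m) ^ 0) := by ring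
    rw [← sub_nonneg, key]
    positivity
  have hL := core (by norm_num : (0 : ℝ) < (31 / 100)) h1 (by linarith : (-1171183 / 1000000) ≤ Real.log (31 / 100)) hw hN
  obtain ⟨g, g1, g2, hF⟩ := F_3
  have hg := gam (s := ((-1547 / 1000) + (1547 / 1000) * m)) (g := g) (gb := (-39681 / 250000)) (S := 8) (e := 1 / 1000000) (by linarith) (by linarith) (by linarith) (by linarith)
  unfold G al ga be
  rw [hF m (by linarith) (by linarith)]
  linarith

lemma segR5 {m : ℝ} (h1 : (13 / 25) ≤ m) (h2 : m ≤ (81 / 100)) :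
    G (421 / 500) 0 (-1101 / 500) ((-1547 / 1000) + (1547 / 1000) * m) m ≤ (4589 / 5000) := by
  have x1 : 0 ≤ m - (13 / 25) := by linarith
  have x2 : 0 ≤ (81 / 100) - m := by linarith
  obtain ⟨c1, c2⟩ := lg_421_500
  obtain ⟨l1, l2⟩ := lg_13_25
  have hw : 0 ≤ ((25931187 / 50000000) + (74068813 / 50000000) * m) := by nlinarith
  have hN : ((-743929669 / 500000000) + (482332169 / 500000000) * m + (520291 / 1000000) * m ^ 2) * (m + (13 / 25)) ^ 3 ≤ ((25931187 / 50000000) + (74068813 / 50000000) * m) * ((-653927 / 1000000) * (m + (13 / 25)) ^ 3 + 2 * (m - (13 / 25)) * (m + (13 / 25)) ^ 2 +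
      2 / 3 * (m - (13 / 25)) ^ 3) := by
    have key : ((25931187 / 50000000) + (74068813 / 50000000) * m) * ((-653927 / 1000000) * (m + (13 / 25)) ^ 3 + 2 * (m - (13 / 25)) * (m + (13 / 25)) ^ 2 +
      2 / 3 * (m - (13 / 25)) ^ 3) - ((-743929669 / 500000000) + (482332169 / 500000000) * m + (520291 / 1000000) * m ^ 2) * (m + (13 / 25)) ^ 3 = (7346009911554964 / 5007604736328125) * ((m - (13 / 25)) ^ 0 * ((81 / 100) - m) ^ 5) + (37008460548388407 / 4006083789062500) * ((m - (13 / 25)) ^ 1 * ((81 / 100) - m) ^ 4) + (3310452610881337597 / 160243351562500000) * ((m - (13 / 25)) ^ 2 * ((81 / 100) - m) ^ 3) + (90461618215185001523 / 3845840437500000000) * ((m - (13 / 25)) ^ 3 * ((81 / 100) - m) ^ 2) + (436152368955187363663 / 30766723500000000000) * ((m - (13 / 25)) ^ 4 * ((81 / 100) - m) ^ 1) + (30989194357118801053 / 10255574500000000000) * ((m - (13 / 25)) ^ 5 * ((81 / 100) - m) ^ 0) := by ring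
    rw [← sub_nonneg, key]
    positivity
  have hL := core (by norm_num : (0 : ℝ) < (13 / 25)) h1 (by linarith : (-653927 / 1000000) ≤ Real.log (13 / 25)) hw hN
  obtain ⟨g, g1, g2, hF⟩ := F_4
  have hg := gam (s := ((-1547 / 1000) + (1547 / 1000) * m)) (g := g) (gb := (-223227 / 1000000)) (S := 8) (e := 1 / 1000000) (by linarith) (by linarith) (by linarith) (by linarith)
  unfold G al ga be
  rw [hF m (by linarith) (by linarith)]
  linarith

lemma segR6 {m : ℝ} (h1 : (81 / 100) ≤ m) (h2 : m ≤ (5 / 4)) :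
    G (421 / 500) 0 (-1101 / 500) ((-1547 / 1000) + (1547 / 1000) * m) m ≤ (4589 / 5000) := by
  have x1 : 0 ≤ m - (81 / 100) := by linarith
  have x2 : 0 ≤ (5 / 4) - m := by linarith
  obtain ⟨c1, c2⟩ := lg_421_500
  obtain ⟨l1, l2⟩ := lg_81_100
  have hw : 0 ≤ ((8581689 / 12500000) + (16418311 / 12500000) * m) := by nlinarith
  have hN : ((-845576851 / 500000000) + (687628351 / 500000000) * m + (312993 / 1000000) * m ^ 2) * (m + (81 / 100)) ^ 3 ≤ ((8581689 / 12500000) + (16418311 / 12500000) * m) * ((-105361 / 500000) * (m + (81 / 100)) ^ 3 + 2 * (m - (81 / 100)) * (m + (81 / 100)) ^ 2 +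
      2 / 3 * (m - (81 / 100)) ^ 3) := by
    have key : ((8581689 / 12500000) + (16418311 / 12500000) * m) * ((-105361 / 500000) * (m + (81 / 100)) ^ 3 + 2 * (m - (81 / 100)) * (m + (81 / 100)) ^ 2 +
      2 / 3 * (m - (81 / 100)) ^ 3) - ((-845576851 / 500000000) + (687628351 / 500000000) * m + (312993 / 1000000) * m ^ 2) * (m + (81 / 100)) ^ 3 = (991302179902724709 / 1288408000000000000) * ((m - (81 / 100)) ^ 0 * ((5 / 4) - m) ^ 5) + (1210072573931094387 / 257681600000000000) * ((m - (81 / 100)) ^ 1 * ((5 / 4) - m) ^ 4) + (6553611503304991407 / 644204000000000000) * ((m - (81 / 100)) ^ 2 * ((5 / 4) - m) ^ 3) + (7213911885254472493 / 644204000000000000) * ((m - (81 / 100)) ^ 3 * ((5 / 4) - m) ^ 2) + (24776135555757076919 / 3865224000000000000) * ((m - (81 / 100)) ^ 4 * ((5 / 4) - m) ^ 1) + (177094525574797949 / 154608960000000000) * ((m - (81 / 100)) ^ 5 * ((5 / 4) - m) ^ 0) := by ring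
    rw [← sub_nonneg, key]
    positivity
  have hL := core (by norm_num : (0 : ℝ) < (81 / 100)) h1 (by linarith : (-105361 / 500000) ≤ Real.log (81 / 100)) hw hN
  obtain ⟨g, g1, g2, hF⟩ := F_5
  have hg := gam (s := ((-1547 / 1000) + (1547 / 1000) * m)) (g := g) (gb := (-288933 / 1000000)) (S := 8) (e := 1 / 1000000) (by linarith) (by linarith) (by linarith) (by linarith)
  unfold G al ga be
  rw [hF m (by linarith) (by linarith)]
  linarith

lemma segR7 {m : ℝ} (h1 : (5 / 4) ≤ m) (h2 : m ≤ (21 / 10)) :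
    G (421 / 500) 0 (-1101 / 500) ((-1547 / 1000) + (1547 / 1000) * m) m ≤ (4589 / 5000) := by
  have x1 : 0 ≤ m - (5 / 4) := by linarith
  have x2 : 0 ≤ (21 / 10) - m := by linarith
  obtain ⟨c1, c2⟩ := lg_421_500
  obtain ⟨l1, l2⟩ := lg_5_4
  have hw : 0 ≤ ((20450753 / 25000000) + (29549247 / 25000000) * m) := by nlinarith
  have hN : ((-896652603 / 500000000) + (791302103 / 500000000) * m + (207797 / 1000000) * m ^ 2) * (m + (5 / 4)) ^ 3 ≤ ((20450753 / 25000000) + (29549247 / 25000000) * m) * ((223143 / 1000000) * (m + (5 / 4)) ^ 3 + 2 * (m - (5 / 4)) * (m + (5 / 4)) ^ 2 +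
      2 / 3 * (m - (5 / 4)) ^ 3) := by
    have key : ((20450753 / 25000000) + (29549247 / 25000000) * m) * ((223143 / 1000000) * (m + (5 / 4)) ^ 3 + 2 * (m - (5 / 4)) * (m + (5 / 4)) ^ 2 +
      2 / 3 * (m - (5 / 4)) ^ 3) - ((-896652603 / 500000000) + (791302103 / 500000000) * m + (207797 / 1000000) * m ^ 2) * (m + (5 / 4)) ^ 3 = (259021223321 / 2839714000000) * ((m - (5 / 4)) ^ 0 * ((21 / 10) - m) ^ 5) + (69659081684191 / 141985700000000) * ((m - (5 / 4)) ^ 1 * ((21 / 10) - m) ^ 4) + (7839085290125577 / 7099285000000000) * ((m - (5 / 4)) ^ 2 * ((21 / 10) - m) ^ 3) + (1747171890818539439 / 1064892750000000000) * ((m - (5 / 4)) ^ 3 * ((21 / 10) - m) ^ 2) + (6320204352665850863 / 5324463750000000000) * ((m - (5 / 4)) ^ 4 * ((21 / 10) - m) ^ 1) + (115350251439149459 / 2662231875000000000) * ((m - (5 / 4)) ^ 5 * ((21 / 10) - m) ^ 0) := by ring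
    rw [← sub_nonneg, key]
    positivity
  have hL := core (by norm_num : (0 : ℝ) < (5 / 4)) h1 (by linarith : (223143 / 1000000) ≤ Real.log (5 / 4)) hw hN
  obtain ⟨g, g1, g2, hF⟩ := F_6
  have hg := gam (s := ((-1547 / 1000) + (1547 / 1000) * m)) (g := g) (gb := (-321949 / 1000000)) (S := 8) (e := 1 / 1000000) (by linarith) (by linarith) (by linarith) (by linarith)
  unfold G al ga be
  rw [hF m (by linarith) (by linarith)]
  linarith

lemma segR8 {m : ℝ} (h1 : (21 / 10) ≤ m) (h2 : m ≤ (169 / 50)) :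
    G (421 / 500) (3 / 10) (-6369 / 5000) ((-63 / 100) + (109 / 100) * m) m ≤ (4589 / 5000) := by
  have x1 : 0 ≤ m - (21 / 10) := by linarith
  have x2 : 0 ≤ (169 / 50) - m := by linarith
  obtain ⟨c1, c2⟩ := lg_421_500
  obtain ⟨l1, l2⟩ := lg_21_10
  have hw : 0 ≤ ((3796637 / 2500000) + (2082009 / 2500000) * m) := by nlinarith
  have hN : ((-132447987 / 50000000) + (134426441 / 50000000) * m + (-3271 / 25000) * m ^ 2) * (m + (21 / 10)) ^ 3 ≤ ((3796637 / 2500000) + (2082009 / 2500000) * m) * ((741937 / 1000000) * (m + (21 / 10)) ^ 3 + 2 * (m - (21 / 10)) * (m + (21 / 10)) ^ 2 +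
      2 / 3 * (m - (21 / 10)) ^ 3) := by
    have key : ((3796637 / 2500000) + (2082009 / 2500000) * m) * ((741937 / 1000000) * (m + (21 / 10)) ^ 3 + 2 * (m - (21 / 10)) * (m + (21 / 10)) ^ 2 +
      2 / 3 * (m - (21 / 10)) ^ 3) - ((-132447987 / 50000000) + (134426441 / 50000000) * m + (-3271 / 25000) * m ^ 2) * (m + (21 / 10)) ^ 3 = (1010420004579363 / 10737418240000000) * ((m - (21 / 10)) ^ 0 * ((169 / 50) - m) ^ 5) + (16306606093949199 / 10737418240000000) * ((m - (21 / 10)) ^ 1 * ((169 / 50) - m) ^ 4) + (1554780421302663639 / 134217728000000000) * ((m - (21 / 10)) ^ 2 * ((169 / 50) - m) ^ 3) + (66376500204461409337 / 2013265920000000000) * ((m - (21 / 10)) ^ 3 * ((169 / 50) - m) ^ 2) + (777640932598458430013 / 20132659200000000000) * ((m - (21 / 10)) ^ 4 * ((169 / 50) - m) ^ 1) + (321046801961403439993 / 20132659200000000000) * ((m - (21 / 10)) ^ 5 * ((169 / 50) - m) ^ 0) := by ring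
    rw [← sub_nonneg, key]
    positivity
  have hL := core (by norm_num : (0 : ℝ) < (21 / 10)) h1 (by linarith : (741937 / 1000000) ≤ Real.log (21 / 10)) hw hN
  obtain ⟨g, g1, g2, hF⟩ := F_6
  have hg := gam (s := ((-63 / 100) + (109 / 100) * m)) (g := g) (gb := (-321949 / 1000000)) (S := 8) (e := 1 / 1000000) (by linarith) (by linarith) (by linarith) (by linarith)
  unfold G al ga be
  rw [hF m (by linarith) (by linarith)]
  linarith

lemma segR9 {m : ℝ} (h1 : (169 / 50) ≤ m) :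
    G (421 / 500) (3 / 10) (-6369 / 5000) ((-3 / 10) + 1 * m) m ≤ (4589 / 5000) := by
  have x1 : 0 ≤ m - (169 / 50) := by linarith
  obtain ⟨c1, c2⟩ := lg_421_500
  obtain ⟨l1, l2⟩ := lg_169_50
  have hw : 0 ≤ ((463991 / 250000) + (12003 / 25000) * m) := by nlinarith
  have hN : ((-12634163 / 5000000) + (1343821 / 500000) * m + (-2323 / 10000) * m ^ 2) * (m + (169 / 50)) ^ 3 ≤ ((463991 / 250000) + (12003 / 25000) * m) * ((9743 / 8000) * (m + (169 / 50)) ^ 3 + 2 * (m - (169 / 50)) * (m + (169 / 50)) ^ 2 +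
      2 / 3 * (m - (169 / 50)) ^ 3) := by
    have key : ((463991 / 250000) + (12003 / 25000) * m) * ((9743 / 8000) * (m + (169 / 50)) ^ 3 + 2 * (m - (169 / 50)) * (m + (169 / 50)) ^ 2 +
      2 / 3 * (m - (169 / 50)) ^ 3) - ((-12634163 / 5000000) + (1343821 / 500000) * m + (-2323 / 10000) * m ^ 2) * (m + (169 / 50)) ^ 3 = (8041398308682297 / 78125000000000) * (m - (169 / 50)) ^ 0 + (3110987189349 / 15625000000) * (m - (169 / 50)) ^ 1 + (8965859419569 / 62500000000) * (m - (169 / 50)) ^ 2 + (40911133463 / 937500000) * (m - (169 / 50)) ^ 3 + (1091759229 / 200000000) * (m - (169 / 50)) ^ 4 + (2323 / 10000) * (m - (169 / 50)) ^ 5 := by ring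
    rw [← sub_nonneg, key]
    positivity
  have hL := core (by norm_num : (0 : ℝ) < (169 / 50)) h1 (by linarith : (9743 / 8000) ≤ Real.log (169 / 50)) hw hN
  obtain ⟨g, g1, g2, hF⟩ := F_7
  have hg := gaminf (s := ((-3 / 10) + 1 * m)) (g := g) (gb := (-14551 / 50000)) (e := 1 / 1000000) (by linarith) (by linarith)
  unfold G al ga be
  rw [hF m (by linarith) trivial]
  linarith

end Vale.Agent.P254.S929
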