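import Vale.Agent.P254.S.Iface
import Vale.Agent.P254.S.H929.SegR
import Vale.Agent.P254.S.H929.SegM
import Vale.Agent.P254.S.H929.SegL

/-!
# P254, block S: the certificate with constant 0.9178 (helper929)

`Cert al ga be 0.9178 F F'`: near-sharp slicing with `δ < 1/25`.
-/

noncomputable section

namespace Vale.Agent.P254.S929

open Real Set

lemma coverR {t m : ℝ} (ht : (3 / 10) ≤ t) (hm : 0 < m) :
    -2 * Real.log m + (al + ga * m + be * m ^ 2) - (F m - t) ^ 2 + (421 / 500) * (1 + m ^ 2) / 2 - 1
      - Real.log (421 / 500) - ((-1101 / 500) + 2 * (1547 / 1000) * t) * (m - 1) ≤ (4589 / 5000) := by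
  rcases le_total m (3 / 50) with h | g0
  · have h0 := segR0 hm h
    have e := eng_lo (t := t) (T := (3 / 10)) (f := F m) (s := ((-50 / 29) + 0 * m)) (a := (1547 / 1000)) (m := m) (k := (-1101 / 500)) ht (by linarith)
    unfold G at h0
    linarith
  rcases le_total m (7 / 50) with h | g1
  · have h0 := segR1 g0 h
    have e := eng_lo (t := t) (T := (3 / 10)) (f := F m) (s := ((-203 / 100) + (467 / 100) * m)) (a := (1547 / 1000)) (m := m) (k := (-1101 / 500)) ht (by linarith)
    unfold G at h0
    linarith
  rcases le_total m (17 / 100) with h | g2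
  · have h0 := segR2 g1 h
    have e := eng_eq (t := t) (f := F m) (s := ((-1547 / 1000) + (1547 / 1000) * m)) (a := (1547 / 1000)) (m := m) (k := (-1101 / 500)) (by ring)
    unfold G at h0
    linarith
  rcases le_total m (31 / 100) with h | g3
  · have h0 := segR3 g2 h
    have e := eng_eq (t := t) (f := F m) (s := ((-1547 / 1000) + (1547 / 1000) * m)) (a := (1547 / 1000)) (m := m) (k := (-1101 / 500)) (by ring)
    unfold G at h0
    linarith
  rcases le_total m (13 / 25) with h | g4
  · have h0 := segR4 g3 h
    have e := eng_eq (t := t) (f := F m) (s := ((-1547 / 1000) + (1547 / 1000) * m)) (a := (1547 / 1000)) (m := m) (k := (-1101 / 500)) (by ring)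
    unfold G at h0
    linarith
  rcases le_total m (81 / 100) with h | g5
  · have h0 := segR5 g4 h
    have e := eng_eq (t := t) (f := F m) (s := ((-1547 / 1000) + (1547 / 1000) * m)) (a := (1547 / 1000)) (m := m) (k := (-1101 / 500)) (by ring)
    unfold G at h0
    linarith
  rcases le_total m (5 / 4) with h | g6
  · have h0 := segR6 g5 h
    have e := eng_eq (t := t) (f := F m) (s := ((-1547 / 1000) + (1547 / 1000) * m)) (a := (1547 / 1000)) (m := m) (k := (-1101 / 500)) (by ring)
    unfold G at h0
    linarith
  rcases le_total m (21 / 10) with h | g7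
  · have h0 := segR7 g6 h
    have e := eng_eq (t := t) (f := F m) (s := ((-1547 / 1000) + (1547 / 1000) * m)) (a := (1547 / 1000)) (m := m) (k := (-1101 / 500)) (by ring)
    unfold G at h0
    linarith
  rcases le_total m (169 / 50) with h | g8
  · have h0 := segR8 g7 h
    have e := eng_lo (t := t) (T := (3 / 10)) (f := F m) (s := ((-63 / 100) + (109 / 100) * m)) (a := (1547 / 1000)) (m := m) (k := (-1101 / 500)) ht (by linarith)
    unfold G at h0
    linarith
  have h0 := segR9 g8
  have e := eng_lo (t := t) (T := (3 / 10)) (f := F m) (s := ((-3 / 10) + 1 * m)) (a := (1547 / 1000)) (m := m) (k := (-1101 / 500)) ht (by linarith)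
  unfold G at h0
  linarith

lemma coverM {t m : ℝ} (ht1 : (-11 / 10) ≤ t) (ht2 : t ≤ (3 / 10)) (hm : 0 < m) :
    -2 * Real.log m + (al + ga * m + be * m ^ 2) - (F m - t) ^ 2 + (341 / 500) * (1 + m ^ 2) / 2 - 1
      - Real.log (341 / 500) - ((-2403 / 1000) + 2 * (1623 / 1000) * t) * (m - 1) ≤ (4589 / 5000) := by
  rcases le_total m (7 / 1000) with h | g0
  · have h0 := segM0 hm h
    have e := eng_lo (t := t) (T := (-11 / 10)) (f := F m) (s := ((-50 / 29) + 0 * m)) (a := (1623 / 1000)) (m := m) (k := (-2403 / 1000)) ht1 (by linarith)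
    unfold G at h0
    linarith
  rcases le_total m (9 / 1000) with h | g1
  · have h0 := segM1 g0 h
    have e := eng_lo (t := t) (T := (-11 / 10)) (f := F m) (s := ((-209 / 100) + (2643 / 50) * m)) (a := (1623 / 1000)) (m := m) (k := (-2403 / 1000)) ht1 (by linarith)
    unfold G at h0
    linarith
  rcases le_total m (3 / 50) with h | g2
  · have h0 := segM2 g1 h
    have e := eng_eq (t := t) (f := F m) (s := ((-1623 / 1000) + (1623 / 1000) * m)) (a := (1623 / 1000)) (m := m) (k := (-2403 / 1000)) (by ring)
    unfold G at h0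
    linarith
  rcases le_total m (13 / 100) with h | g3
  · have h0 := segM3 g2 h
    have e := eng_eq (t := t) (f := F m) (s := ((-1623 / 1000) + (1623 / 1000) * m)) (a := (1623 / 1000)) (m := m) (k := (-2403 / 1000)) (by ring)
    unfold G at h0
    linarith
  rcases le_total m (17 / 100) with h | g4
  · have h0 := segM4 g3 h
    have e := eng_hi (t := t) (T := (3 / 10)) (f := F m) (s := ((-99 / 50) + (219 / 50) * m)) (a := (1623 / 1000)) (m := m) (k := (-2403 / 1000)) ht2 (by linarith)
    unfold G at h0
    linarith
  rcases le_total m (31 / 100) with h | g5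
  · have h0 := segM5 g4 h
    have e := eng_hi (t := t) (T := (3 / 10)) (f := F m) (s := ((-7 / 4) + 3 * m)) (a := (1623 / 1000)) (m := m) (k := (-2403 / 1000)) ht2 (by linarith)
    unfold G at h0
    linarith
  rcases le_total m (13 / 25) with h | g6
  · have h0 := segM6 g5 h
    have e := eng_hi (t := t) (T := (3 / 10)) (f := F m) (s := ((-29 / 20) + (203 / 100) * m)) (a := (1623 / 1000)) (m := m) (k := (-2403 / 1000)) ht2 (by linarith)
    unfold G at h0
    linarith
  rcases le_total m (81 / 100) with h | g7
  · have h0 := segM7 g6 h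
    have e := eng_hi (t := t) (T := (3 / 10)) (f := F m) (s := ((-121 / 100) + (157 / 100) * m)) (a := (1623 / 1000)) (m := m) (k := (-2403 / 1000)) ht2 (by linarith)
    unfold G at h0
    linarith
  rcases le_total m (5 / 4) with h | g8
  · have h0 := segM8 g7 h
    have e := eng_hi (t := t) (T := (3 / 10)) (f := F m) (s := ((-101 / 100) + (133 / 100) * m)) (a := (1623 / 1000)) (m := m) (k := (-2403 / 1000)) ht2 (by linarith)
    unfold G at h0
    linarith
  rcases le_total m (17 / 10) with h | g9
  · have h0 := segM9 g8 h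
    have e := eng_hi (t := t) (T := (3 / 10)) (f := F m) (s := ((-43 / 50) + (121 / 100) * m)) (a := (1623 / 1000)) (m := m) (k := (-2403 / 1000)) ht2 (by linarith)
    unfold G at h0
    linarith
  rcases le_total m (169 / 50) with h | g10
  · have h0 := segM10 g9 h
    have e := eng_eq (t := t) (f := F m) (s := ((-1623 / 1000) + (1623 / 1000) * m)) (a := (1623 / 1000)) (m := m) (k := (-2403 / 1000)) (by ring)
    unfold G at h0
    linarith
  rcases le_total m (9 / 2) with h | g11
  · have h0 := segM11 g10 h
    have e := eng_eq (t := t) (f := F m) (s := ((-1623 / 1000) + (1623 / 1000) * m)) (a := (1623 / 1000)) (m := m) (k := (-2403 / 1000)) (by ring)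
    unfold G at h0
    linarith
  rcases le_total m (47 / 10) with h | g12
  · have h0 := segM12 g11 h
    have e := eng_lo (t := t) (T := (-11 / 10)) (f := F m) (s := ((47 / 50) + (26 / 25) * m)) (a := (1623 / 1000)) (m := m) (k := (-2403 / 1000)) ht1 (by linarith)
    unfold G at h0
    linarith
  have h0 := segM13 g12
  have e := eng_lo (t := t) (T := (-11 / 10)) (f := F m) (s := (1 + (101 / 100) * m)) (a := (1623 / 1000)) (m := m) (k := (-2403 / 1000)) ht1 (by linarith)
  unfold G at h0
  linarith

lemma coverL {t m : ℝ} (ht : t ≤ (-11 / 10)) (hm : 0 < m) :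
    -2 * Real.log m + (al + ga * m + be * m ^ 2) - (F m - t) ^ 2 + (57 / 250) * (1 + m ^ 2) / 2 - 1
      - Real.log (57 / 250) - ((-384 / 125) + 2 * (50 / 29) * t) * (m - 1) ≤ (4589 / 5000) := by
  rcases le_total m (3 / 1000) with h | g0
  · have h0 := segL0 hm h
    have e := eng_eq (t := t) (f := F m) (s := ((-50 / 29) + (50 / 29) * m)) (a := (50 / 29)) (m := m) (k := (-384 / 125)) (by ring)
    unfold G at h0
    linarith
  rcases le_total m (1 / 100) with h | g1
  · have h0 := segL1 g0 h
    have e := eng_eq (t := t) (f := F m) (s := ((-50 / 29) + (50 / 29) * m)) (a := (50 / 29)) (m := m) (k := (-384 / 125)) (by ring)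
    unfold G at h0
    linarith
  rcases le_total m (3 / 50) with h | g2
  · have h0 := segL2 g1 h
    have e := eng_hi (t := t) (T := (-11 / 10)) (f := F m) (s := ((-159 / 100) + (931 / 50) * m)) (a := (50 / 29)) (m := m) (k := (-384 / 125)) ht (by linarith)
    unfold G at h0
    linarith
  rcases le_total m (17 / 100) with h | g3
  · have h0 := segL3 g2 h
    have e := eng_hi (t := t) (T := (-11 / 10)) (f := F m) (s := ((-4 / 5) + (573 / 100) * m)) (a := (50 / 29)) (m := m) (k := (-384 / 125)) ht (by linarith)
    unfold G at h0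
    linarith
  rcases le_total m (31 / 100) with h | g4
  · have h0 := segL4 g3 h
    have e := eng_hi (t := t) (T := (-11 / 10)) (f := F m) (s := ((-7 / 20) + 3 * m)) (a := (50 / 29)) (m := m) (k := (-384 / 125)) ht (by linarith)
    unfold G at h0
    linarith
  rcases le_total m (13 / 25) with h | g5
  · have h0 := segL5 g4 h
    have e := eng_hi (t := t) (T := (-11 / 10)) (f := F m) (s := ((-1 / 20) + (203 / 100) * m)) (a := (50 / 29)) (m := m) (k := (-384 / 125)) ht (by linarith)
    unfold G at h0
    linarith
  rcases le_total m (81 / 100) with h | g6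
  · have h0 := segL6 g5 h
    have e := eng_hi (t := t) (T := (-11 / 10)) (f := F m) (s := ((19 / 100) + (157 / 100) * m)) (a := (50 / 29)) (m := m) (k := (-384 / 125)) ht (by linarith)
    unfold G at h0
    linarith
  rcases le_total m (5 / 4) with h | g7
  · have h0 := segL7 g6 h
    have e := eng_hi (t := t) (T := (-11 / 10)) (f := F m) (s := ((39 / 100) + (133 / 100) * m)) (a := (50 / 29)) (m := m) (k := (-384 / 125)) ht (by linarith)
    unfold G at h0
    linarith
  rcases le_total m 2 with h | g8
  · have h0 := segL8 g7 h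
    have e := eng_hi (t := t) (T := (-11 / 10)) (f := F m) (s := ((57 / 100) + (119 / 100) * m)) (a := (50 / 29)) (m := m) (k := (-384 / 125)) ht (by linarith)
    unfold G at h0
    linarith
  rcases le_total m (169 / 50) with h | g9
  · have h0 := segL9 g8 h
    have e := eng_hi (t := t) (T := (-11 / 10)) (f := F m) (s := ((19 / 25) + (109 / 100) * m)) (a := (50 / 29)) (m := m) (k := (-384 / 125)) ht (by linarith)
    unfold G at h0
    linarith
  rcases le_total m (18 / 5) with h | g10
  · have h0 := segL10 g9 h
    have e := eng_hi (t := t) (T := (-11 / 10)) (f := F m) (s := ((87 / 100) + (53 / 50) * m)) (a := (50 / 29)) (m := m) (k := (-384 / 125)) ht (by linarith)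
    unfold G at h0
    linarith
  have h0 := segL11 g10
  have e := eng_eq (t := t) (f := F m) (s := ((-50 / 29) + (50 / 29) * m)) (a := (50 / 29)) (m := m) (k := (-384 / 125)) (by ring)
  unfold G at h0
  linarith

/-- **The certificate** with constant `0.9178`. -/
theorem cert : Vale.Agent.P254.S.Cert al ga be (4589 / 5000) F F' where
  al := by unfold al; norm_num
  ga := by unfold ga; norm_num
  be := by unfold be; norm_num
  hd _ hm := hasDerivAt_F hm
  cont := continuousOn_F'
  nonneg _ hm := F'_nonneg hm
  sq _ hm := F'_sq hm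
  cert t := by
    rcases le_total (3 / 10) t with h | h
    · exact ⟨(421 / 500), by norm_num, (-1101 / 500) + 2 * (1547 / 1000) * t, fun m hm => coverR h hm⟩
    rcases le_total (-11 / 10) t with h' | h'
    · exact ⟨(341 / 500), by norm_num, (-2403 / 1000) + 2 * (1623 / 1000) * t, fun m hm => coverM h' h hm⟩
    · exact ⟨(57 / 250), by norm_num, (-384 / 125) + 2 * (50 / 29) * t, fun m hm => coverL h' hm⟩

end Vale.Agent.P254.S929
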