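import Vale.Agent.P254.S.H929.LogN

/-!
# P254, block S: the test function of the certificate (helper929, generated)

`F' m = ell m / m`, `ell` = maximum of 8 tangent lines of `√(al + 2 ga m + 3 be m²)`.
-/

noncomputable section

namespace Vale.Agent.P254.S929

open Real Set

def al : ℝ := (841 / 2500)
def ga : ℝ := (1189 / 5000)
def be : ℝ := (3267 / 10000)

/-- `∫ (1 - x/y)_+ dy` from `x` to `m` -/
def psi (x m : ℝ) : ℝ := max m x - x - x * Real.log (max m x / x)

lemma psi_le {x m : ℝ} (hx : 0 < x) (h : m ≤ x) : psi x m = 0 := by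
  unfold psi
  rw [max_eq_right h, div_self hx.ne', Real.log_one]
  ring

lemma psi_ge {x m : ℝ} (hx : 0 < x) (h : x ≤ m) :
    psi x m = m - x - x * Real.log m + x * Real.log x := by
  unfold psi
  rw [max_eq_left h, Real.log_div (hx.trans_le h).ne' hx.ne']
  ring

lemma hasDerivAt_psi {x m : ℝ} (hx : 0 < x) (hm : 0 < m) :
    HasDerivAt (psi x) ((max m x - x) / m) m := by
  have h1 : HasDerivWithinAt (psi x) ((max m x - x) / m) (Iic x) m := by
    by_cases h : m ≤ x
    · rw [max_eq_right h, sub_self, zero_div]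
      exact (hasDerivWithinAt_const m _ (0 : ℝ)).congr (fun y hy => psi_le hx hy) (psi_le hx h)
    · exact HasFDerivWithinAt.of_notMem_closure (by rw [closure_Iic]; exact h)
  have h2 : HasDerivWithinAt (psi x) ((max m x - x) / m) (Ici x) m := by
    by_cases h : x ≤ m
    · rw [max_eq_left h]
      have h3 : HasDerivAt (fun y => y - x - x * Real.log y + x * Real.log x) ((m - x) / m) m := by
        have h4 := ((((hasDerivAt_id m).sub_const x).sub
          ((Real.hasDerivAt_log hm.ne').const_mul x)).add_const (x * Real.log x))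
        refine h4.congr_deriv ?_
        field_simp
      exact h3.hasDerivWithinAt.congr (fun y hy => psi_ge hx hy) (psi_ge hx h)
    · exact HasFDerivWithinAt.of_notMem_closure (by rw [closure_Ici]; exact h)
  have h3 := h1.union h2
  rwa [Iic_union_Ici, hasDerivWithinAt_univ] at h3

/-- maximum of the tangent lines -/
def ell (m : ℝ) : ℝ := 29 / 50 + 41 / 100 * m + (153 / 1000) * (max m (3 / 50) - (3 / 50)) + (21 / 250) * (max m (17 / 100) - (17 / 100)) + (1 / 8) * (max m (31 / 100) - (31 / 100)) + (3 / 40) * (max m (13 / 25) - (13 / 25)) + (67 / 1000) * (max m (81 / 100) - (81 / 100)) + (17 / 500) * (max m (5 / 4) - (5 / 4)) + (21 / 500) * (max m (169 / 50) - (169 / 50))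

/-- the test function -/
def F (m : ℝ) : ℝ := 29 / 50 * Real.log m + 41 / 100 * m + (153 / 1000) * psi (3 / 50) m + (21 / 250) * psi (17 / 100) m + (1 / 8) * psi (31 / 100) m + (3 / 40) * psi (13 / 25) m + (67 / 1000) * psi (81 / 100) m + (17 / 500) * psi (5 / 4) m + (21 / 500) * psi (169 / 50) m

def F' (m : ℝ) : ℝ := ell m / m

lemma hasDerivAt_F {m : ℝ} (hm : 0 < m) : HasDerivAt F (F' m) m := by
  have h0 := ((Real.hasDerivAt_log hm.ne').const_mul (29 / 50 : ℝ)).add
    ((hasDerivAt_id m).const_mul (41 / 100 : ℝ))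
  have h1 := h0.add ((hasDerivAt_psi (x := (3 / 50)) (by norm_num) hm).const_mul (153 / 1000))
  have h2 := h1.add ((hasDerivAt_psi (x := (17 / 100)) (by norm_num) hm).const_mul (21 / 250))
  have h3 := h2.add ((hasDerivAt_psi (x := (31 / 100)) (by norm_num) hm).const_mul (1 / 8))
  have h4 := h3.add ((hasDerivAt_psi (x := (13 / 25)) (by norm_num) hm).const_mul (3 / 40))
  have h5 := h4.add ((hasDerivAt_psi (x := (81 / 100)) (by norm_num) hm).const_mul (67 / 1000))
  have h6 := h5.add ((hasDerivAt_psi (x := (5 / 4)) (by norm_num) hm).const_mul (17 / 500))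
  have h7 := h6.add ((hasDerivAt_psi (x := (169 / 50)) (by norm_num) hm).const_mul (21 / 500))
  refine h7.congr_deriv ?_
  unfold F' ell
  field_simp

lemma continuous_ell : Continuous ell := by
  unfold ell
  fun_prop

lemma continuousOn_F' : ContinuousOn F' (Ioi 0) := by
  unfold F'
  exact continuous_ell.continuousOn.div continuousOn_id fun x hx => (ne_of_gt hx)

lemma ell_nonneg {m : ℝ} (hm : 0 < m) : 0 ≤ ell m := by
  unfold ell
  have h0 : 0 ≤ max m (3 / 50) - (3 / 50) := sub_nonneg.2 (le_max_right _ _)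
  have h1 : 0 ≤ max m (17 / 100) - (17 / 100) := sub_nonneg.2 (le_max_right _ _)
  have h2 : 0 ≤ max m (31 / 100) - (31 / 100) := sub_nonneg.2 (le_max_right _ _)
  have h3 : 0 ≤ max m (13 / 25) - (13 / 25) := sub_nonneg.2 (le_max_right _ _)
  have h4 : 0 ≤ max m (81 / 100) - (81 / 100) := sub_nonneg.2 (le_max_right _ _)
  have h5 : 0 ≤ max m (5 / 4) - (5 / 4) := sub_nonneg.2 (le_max_right _ _)
  have h6 : 0 ≤ max m (169 / 50) - (169 / 50) := sub_nonneg.2 (le_max_right _ _)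
  positivity

lemma ell_0 {m : ℝ} (h2 : m ≤ (3 / 50)) : ell m = (29 / 50) + (41 / 100) * m := by
  unfold ell
  rw [max_eq_right (by linarith : m ≤ (3 / 50))]
  rw [max_eq_right (by linarith : m ≤ (17 / 100))]
  rw [max_eq_right (by linarith : m ≤ (31 / 100))]
  rw [max_eq_right (by linarith : m ≤ (13 / 25))]
  rw [max_eq_right (by linarith : m ≤ (81 / 100))]
  rw [max_eq_right (by linarith : m ≤ (5 / 4))]
  rw [max_eq_right (by linarith : m ≤ (169 / 50))]
  ring

lemma sq_0 {m : ℝ} (_hm : 0 ≤ m) : ((29 / 50) + (41 / 100) * m) ^ 2 ≤ al + 2 * ga * m + 3 * be * m ^ 2 := by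
  unfold al ga be
  have key : (841 / 2500) + 2 * (1189 / 5000) * m + 3 * (3267 / 10000) * m ^ 2 - ((29 / 50) + (41 / 100) * m) ^ 2 = 0 + 0 * m + (203 / 250) * m ^ 2 := by ring
  rw [← sub_nonneg, key]
  positivity

lemma ell_1 {m : ℝ} (h1 : (3 / 50) ≤ m) (h2 : m ≤ (17 / 100)) : ell m = (28541 / 50000) + (563 / 1000) * m := by
  unfold ell
  rw [max_eq_left (by linarith : (3 / 50) ≤ m)]
  rw [max_eq_right (by linarith : m ≤ (17 / 100))]
  rw [max_eq_right (by linarith : m ≤ (31 / 100))]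
  rw [max_eq_right (by linarith : m ≤ (13 / 25))]
  rw [max_eq_right (by linarith : m ≤ (81 / 100))]
  rw [max_eq_right (by linarith : m ≤ (5 / 4))]
  rw [max_eq_right (by linarith : m ≤ (169 / 50))]
  ring

lemma sq_1 {m : ℝ} (_hm : 0 ≤ m) : ((28541 / 50000) + (563 / 1000) * m) ^ 2 ≤ al + 2 * ga * m + 3 * be * m ^ 2 := by
  unfold al ga be
  have key : (841 / 2500) + 2 * (1189 / 5000) * m + 3 * (3267 / 10000) * m ^ 2 - ((28541 / 50000) + (563 / 1000) * m) ^ 2 = (625000000 / 26411319) * ((26411319 / 1250000000) + (-4178583 / 25000000) * m) ^ 2 + (1167941 / 575410000) * m ^ 2 := by ring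
  rw [← sub_nonneg, key]
  positivity

lemma ell_2 {m : ℝ} (h1 : (17 / 100) ≤ m) (h2 : m ≤ (31 / 100)) : ell m = (27827 / 50000) + (647 / 1000) * m := by
  unfold ell
  rw [max_eq_left (by linarith : (3 / 50) ≤ m)]
  rw [max_eq_left (by linarith : (17 / 100) ≤ m)]
  rw [max_eq_right (by linarith : m ≤ (31 / 100))]
  rw [max_eq_right (by linarith : m ≤ (13 / 25))]
  rw [max_eq_right (by linarith : m ≤ (81 / 100))]
  rw [max_eq_right (by linarith : m ≤ (5 / 4))]
  rw [max_eq_right (by linarith : m ≤ (169 / 50))]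
  ring

lemma sq_2 {m : ℝ} (_hm : 0 ≤ m) : ((27827 / 50000) + (647 / 1000) * m) ^ 2 ≤ al + 2 * ga * m + 3 * be * m ^ 2 := by
  unfold al ga be
  have key : (841 / 2500) + 2 * (1189 / 5000) * m + 3 * (3267 / 10000) * m ^ 2 - ((27827 / 50000) + (647 / 1000) * m) ^ 2 = (625000000 / 66658071) * ((66658071 / 1250000000) + (-6114069 / 25000000) * m) ^ 2 + (153557357 / 222193570000) * m ^ 2 := by ring
  rw [← sub_nonneg, key]
  positivity

lemma ell_3 {m : ℝ} (h1 : (31 / 100) ≤ m) (h2 : m ≤ (13 / 25)) : ell m = (51779 / 100000) + (193 / 250) * m := by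
  unfold ell
  rw [max_eq_left (by linarith : (3 / 50) ≤ m)]
  rw [max_eq_left (by linarith : (17 / 100) ≤ m)]
  rw [max_eq_left (by linarith : (31 / 100) ≤ m)]
  rw [max_eq_right (by linarith : m ≤ (13 / 25))]
  rw [max_eq_right (by linarith : m ≤ (81 / 100))]
  rw [max_eq_right (by linarith : m ≤ (5 / 4))]
  rw [max_eq_right (by linarith : m ≤ (169 / 50))]
  ring

lemma sq_3 {m : ℝ} (_hm : 0 ≤ m) : ((51779 / 100000) + (193 / 250) * m) ^ 2 ≤ al + 2 * ga * m + 3 * be * m ^ 2 := by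
  unfold al ga be
  have key : (841 / 2500) + 2 * (1189 / 5000) * m + 3 * (3267 / 10000) * m ^ 2 - ((51779 / 100000) + (193 / 250) * m) ^ 2 = (2500000000 / 682935159) * ((682935159 / 5000000000) + (-4048347 / 12500000) * m) ^ 2 + (335022053 / 2276450530000) * m ^ 2 := by ring
  rw [← sub_nonneg, key]
  positivity

lemma ell_4 {m : ℝ} (h1 : (13 / 25) ≤ m) (h2 : m ≤ (81 / 100)) : ell m = (47879 / 100000) + (847 / 1000) * m := by
  unfold ell
  rw [max_eq_left (by linarith : (3 / 50) ≤ m)]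
  rw [max_eq_left (by linarith : (17 / 100) ≤ m)]
  rw [max_eq_left (by linarith : (31 / 100) ≤ m)]
  rw [max_eq_left (by linarith : (13 / 25) ≤ m)]
  rw [max_eq_right (by linarith : m ≤ (81 / 100))]
  rw [max_eq_right (by linarith : m ≤ (5 / 4))]
  rw [max_eq_right (by linarith : m ≤ (169 / 50))]
  ring

lemma sq_4 {m : ℝ} (_hm : 0 ≤ m) : ((47879 / 100000) + (847 / 1000) * m) ^ 2 ≤ al + 2 * ga * m + 3 * be * m ^ 2 := by
  unfold al ga be
  have key : (841 / 2500) + 2 * (1189 / 5000) * m + 3 * (3267 / 10000) * m ^ 2 - ((47879 / 100000) + (847 / 1000) * m) ^ 2 = (2500000000 / 1071601359) * ((1071601359 / 5000000000) + (-16773513 / 50000000) * m) ^ 2 + (591733 / 4247330000) * m ^ 2 := by ring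
  rw [← sub_nonneg, key]
  positivity

lemma ell_5 {m : ℝ} (h1 : (81 / 100) ≤ m) (h2 : m ≤ (5 / 4)) : ell m = (10613 / 25000) + (457 / 500) * m := by
  unfold ell
  rw [max_eq_left (by linarith : (3 / 50) ≤ m)]
  rw [max_eq_left (by linarith : (17 / 100) ≤ m)]
  rw [max_eq_left (by linarith : (31 / 100) ≤ m)]
  rw [max_eq_left (by linarith : (13 / 25) ≤ m)]
  rw [max_eq_left (by linarith : (81 / 100) ≤ m)]
  rw [max_eq_right (by linarith : m ≤ (5 / 4))]
  rw [max_eq_right (by linarith : m ≤ (169 / 50))]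
  ring

lemma sq_5 {m : ℝ} (_hm : 0 ≤ m) : ((10613 / 25000) + (457 / 500) * m) ^ 2 ≤ al + 2 * ga * m + 3 * be * m ^ 2 := by
  unfold al ga be
  have key : (841 / 2500) + 2 * (1189 / 5000) * m + 3 * (3267 / 10000) * m ^ 2 - ((10613 / 25000) + (457 / 500) * m) ^ 2 = (156250000 / 97614231) * ((97614231 / 312500000) + (-1877641 / 6250000) * m) ^ 2 + (230267831 / 976142310000) * m ^ 2 := by ring
  rw [← sub_nonneg, key]
  positivity

lemma ell_6 {m : ℝ} (h1 : (5 / 4) ≤ m) (h2 : m ≤ (169 / 50)) : ell m = (19101 / 50000) + (237 / 250) * m := by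
  unfold ell
  rw [max_eq_left (by linarith : (3 / 50) ≤ m)]
  rw [max_eq_left (by linarith : (17 / 100) ≤ m)]
  rw [max_eq_left (by linarith : (31 / 100) ≤ m)]
  rw [max_eq_left (by linarith : (13 / 25) ≤ m)]
  rw [max_eq_left (by linarith : (81 / 100) ≤ m)]
  rw [max_eq_left (by linarith : (5 / 4) ≤ m)]
  rw [max_eq_right (by linarith : m ≤ (169 / 50))]
  ring

lemma sq_6 {m : ℝ} (_hm : 0 ≤ m) : ((19101 / 50000) + (237 / 250) * m) ^ 2 ≤ al + 2 * ga * m + 3 * be * m ^ 2 := by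
  unfold al ga be
  have key : (841 / 2500) + 2 * (1189 / 5000) * m + 3 * (3267 / 10000) * m ^ 2 - ((19101 / 50000) + (237 / 250) * m) ^ 2 = (625000000 / 476151799) * ((476151799 / 1250000000) + (-1554437 / 6250000) * m) ^ 2 + (964616399 / 4761517990000) * m ^ 2 := by ring
  rw [← sub_nonneg, key]
  positivity

lemma ell_7 {m : ℝ} (h1 : (169 / 50) ≤ m) : ell m = (12003 / 50000) + (99 / 100) * m := by
  unfold ell
  rw [max_eq_left (by linarith : (3 / 50) ≤ m)]
  rw [max_eq_left (by linarith : (17 / 100) ≤ m)]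
  rw [max_eq_left (by linarith : (31 / 100) ≤ m)]
  rw [max_eq_left (by linarith : (13 / 25) ≤ m)]
  rw [max_eq_left (by linarith : (81 / 100) ≤ m)]
  rw [max_eq_left (by linarith : (5 / 4) ≤ m)]
  rw [max_eq_left (by linarith : (169 / 50) ≤ m)]
  ring

lemma sq_7 {m : ℝ} (_hm : 0 ≤ m) : ((12003 / 50000) + (99 / 100) * m) ^ 2 ≤ al + 2 * ga * m + 3 * be * m ^ 2 := by
  unfold al ga be
  have key : (841 / 2500) + 2 * (1189 / 5000) * m + 3 * (3267 / 10000) * m ^ 2 - ((12003 / 50000) + (99 / 100) * m) ^ 2 = (696927991 / 2500000000) + (703 / 2500000) * m + 0 * m ^ 2 := by ring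
  rw [← sub_nonneg, key]
  positivity

lemma ell_sq {m : ℝ} (hm : 0 < m) : ell m ^ 2 ≤ al + 2 * ga * m + 3 * be * m ^ 2 := by
  rcases le_total m (3 / 50) with h | g0
  · rw [ell_0 h]; exact sq_0 hm.le
  rcases le_total m (17 / 100) with h | g1
  · rw [ell_1 g0 h]; exact sq_1 hm.le
  rcases le_total m (31 / 100) with h | g2
  · rw [ell_2 g1 h]; exact sq_2 hm.le
  rcases le_total m (13 / 25) with h | g3
  · rw [ell_3 g2 h]; exact sq_3 hm.le
  rcases le_total m (81 / 100) with h | g4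
  · rw [ell_4 g3 h]; exact sq_4 hm.le
  rcases le_total m (5 / 4) with h | g5
  · rw [ell_5 g4 h]; exact sq_5 hm.le
  rcases le_total m (169 / 50) with h | g6
  · rw [ell_6 g5 h]; exact sq_6 hm.le
  rw [ell_7 g6]
  exact sq_7 hm.le

lemma F'_sq {m : ℝ} (hm : 0 < m) : F' m ^ 2 ≤ al / m ^ 2 + 2 * ga / m + 3 * be := by
  unfold F'
  have h := ell_sq hm
  have e : al / m ^ 2 + 2 * ga / m + 3 * be = (al + 2 * ga * m + 3 * be * m ^ 2) / m ^ 2 := by
    field_simp
  rw [e, div_pow]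
  exact div_le_div_of_nonneg_right h (by positivity)

lemma F'_nonneg {m : ℝ} (hm : 0 < m) : 0 ≤ F' m := div_nonneg (ell_nonneg hm) hm.le

lemma F_0 {m : ℝ} (h2 : m ≤ (3 / 50)) : F m = 29 / 50 * Real.log m + 41 / 100 * m := by
  unfold F
  rw [psi_le (by norm_num) (by linarith : m ≤ (3 / 50))]
  rw [psi_le (by norm_num) (by linarith : m ≤ (17 / 100))]
  rw [psi_le (by norm_num) (by linarith : m ≤ (31 / 100))]
  rw [psi_le (by norm_num) (by linarith : m ≤ (13 / 25))]
  rw [psi_le (by norm_num) (by linarith : m ≤ (81 / 100))]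
  rw [psi_le (by norm_num) (by linarith : m ≤ (5 / 4))]
  rw [psi_le (by norm_num) (by linarith : m ≤ (169 / 50))]
  ring

lemma F_1 : ∃ g : ℝ, (-547 / 15625) ≤ g ∧ g ≤ (-17503 / 500000) ∧ ∀ m : ℝ, (3 / 50) ≤ m → m ≤ (17 / 100) →
    F m = (28541 / 50000) * Real.log m + (563 / 1000) * m + g := by
  refine ⟨(153 / 1000) * (-(3 / 50) + (3 / 50) * Real.log (3 / 50)), ?_, ?_, fun m h1 h2 => ?_⟩
  · have a0 := lg_3_50
    linarith [a0.1, a0.2]
  · have a0 := lg_3_50
    linarith [a0.1, a0.2]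
  · unfold F
    rw [psi_ge (by norm_num) (by linarith : (3 / 50) ≤ m)]
    rw [psi_le (by norm_num) (by linarith : m ≤ (17 / 100))]
    rw [psi_le (by norm_num) (by linarith : m ≤ (31 / 100))]
    rw [psi_le (by norm_num) (by linarith : m ≤ (13 / 25))]
    rw [psi_le (by norm_num) (by linarith : m ≤ (81 / 100))]
    rw [psi_le (by norm_num) (by linarith : m ≤ (5 / 4))]
    rw [psi_le (by norm_num) (by linarith : m ≤ (169 / 50))]
    ring

lemma F_2 : ∃ g : ℝ, (-2331 / 31250) ≤ g ∧ g ≤ (-7459 / 100000) ∧ ∀ m : ℝ, (17 / 100) ≤ m → m ≤ (31 / 100) →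
    F m = (27827 / 50000) * Real.log m + (647 / 1000) * m + g := by
  refine ⟨(153 / 1000) * (-(3 / 50) + (3 / 50) * Real.log (3 / 50)) + (21 / 250) * (-(17 / 100) + (17 / 100) * Real.log (17 / 100)), ?_, ?_, fun m h1 h2 => ?_⟩
  · have a0 := lg_3_50
    have a1 := lg_17_100
    linarith [a0.1, a0.2, a1.1, a1.2]
  · have a0 := lg_3_50
    have a1 := lg_17_100
    linarith [a0.1, a0.2, a1.1, a1.2]
  · unfold F
    rw [psi_ge (by norm_num) (by linarith : (3 / 50) ≤ m)]
    rw [psi_ge (by norm_num) (by linarith : (17 / 100) ≤ m)]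
    rw [psi_le (by norm_num) (by linarith : m ≤ (31 / 100))]
    rw [psi_le (by norm_num) (by linarith : m ≤ (13 / 25))]
    rw [psi_le (by norm_num) (by linarith : m ≤ (81 / 100))]
    rw [psi_le (by norm_num) (by linarith : m ≤ (5 / 4))]
    rw [psi_le (by norm_num) (by linarith : m ≤ (169 / 50))]
    ring

lemma F_3 : ∃ g : ℝ, (-6349 / 40000) ≤ g ∧ g ≤ (-158723 / 1000000) ∧ ∀ m : ℝ, (31 / 100) ≤ m → m ≤ (13 / 25) →
    F m = (51779 / 100000) * Real.log m + (193 / 250) * m + g := by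
  refine ⟨(153 / 1000) * (-(3 / 50) + (3 / 50) * Real.log (3 / 50)) + (21 / 250) * (-(17 / 100) + (17 / 100) * Real.log (17 / 100)) + (1 / 8) * (-(31 / 100) + (31 / 100) * Real.log (31 / 100)), ?_, ?_, fun m h1 h2 => ?_⟩
  · have a0 := lg_3_50
    have a1 := lg_17_100
    have a2 := lg_31_100
    linarith [a0.1, a0.2, a1.1, a1.2, a2.1, a2.2]
  · have a0 := lg_3_50
    have a1 := lg_17_100
    have a2 := lg_31_100
    linarith [a0.1, a0.2, a1.1, a1.2, a2.1, a2.2]
  · unfold F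
    rw [psi_ge (by norm_num) (by linarith : (3 / 50) ≤ m)]
    rw [psi_ge (by norm_num) (by linarith : (17 / 100) ≤ m)]
    rw [psi_ge (by norm_num) (by linarith : (31 / 100) ≤ m)]
    rw [psi_le (by norm_num) (by linarith : m ≤ (13 / 25))]
    rw [psi_le (by norm_num) (by linarith : m ≤ (81 / 100))]
    rw [psi_le (by norm_num) (by linarith : m ≤ (5 / 4))]
    rw [psi_le (by norm_num) (by linarith : m ≤ (169 / 50))]
    ring

lemma F_4 : ∃ g : ℝ, (-55807 / 250000) ≤ g ∧ g ≤ (-111613 / 500000) ∧ ∀ m : ℝ, (13 / 25) ≤ m → m ≤ (81 / 100) →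
    F m = (47879 / 100000) * Real.log m + (847 / 1000) * m + g := by
  refine ⟨(153 / 1000) * (-(3 / 50) + (3 / 50) * Real.log (3 / 50)) + (21 / 250) * (-(17 / 100) + (17 / 100) * Real.log (17 / 100)) + (1 / 8) * (-(31 / 100) + (31 / 100) * Real.log (31 / 100)) + (3 / 40) * (-(13 / 25) + (13 / 25) * Real.log (13 / 25)), ?_, ?_, fun m h1 h2 => ?_⟩
  · have a0 := lg_3_50
    have a1 := lg_17_100
    have a2 := lg_31_100
    have a3 := lg_13_25
    linarith [a0.1, a0.2, a1.1, a1.2, a2.1, a2.2, a3.1, a3.2]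
  · have a0 := lg_3_50
    have a1 := lg_17_100
    have a2 := lg_31_100
    have a3 := lg_13_25
    linarith [a0.1, a0.2, a1.1, a1.2, a2.1, a2.2, a3.1, a3.2]
  · unfold F
    rw [psi_ge (by norm_num) (by linarith : (3 / 50) ≤ m)]
    rw [psi_ge (by norm_num) (by linarith : (17 / 100) ≤ m)]
    rw [psi_ge (by norm_num) (by linarith : (31 / 100) ≤ m)]
    rw [psi_ge (by norm_num) (by linarith : (13 / 25) ≤ m)]
    rw [psi_le (by norm_num) (by linarith : m ≤ (81 / 100))]
    rw [psi_le (by norm_num) (by linarith : m ≤ (5 / 4))]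
    rw [psi_le (by norm_num) (by linarith : m ≤ (169 / 50))]
    ring

lemma F_5 : ∃ g : ℝ, (-144467 / 500000) ≤ g ∧ g ≤ (-72233 / 250000) ∧ ∀ m : ℝ, (81 / 100) ≤ m → m ≤ (5 / 4) →
    F m = (10613 / 25000) * Real.log m + (457 / 500) * m + g := by
  refine ⟨(153 / 1000) * (-(3 / 50) + (3 / 50) * Real.log (3 / 50)) + (21 / 250) * (-(17 / 100) + (17 / 100) * Real.log (17 / 100)) + (1 / 8) * (-(31 / 100) + (31 / 100) * Real.log (31 / 100)) + (3 / 40) * (-(13 / 25) + (13 / 25) * Real.log (13 / 25)) + (67 / 1000) * (-(81 / 100) + (81 / 100) * Real.log (81 / 100)), ?_, ?_, fun m h1 h2 => ?_⟩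
  · have a0 := lg_3_50
    have a1 := lg_17_100
    have a2 := lg_31_100
    have a3 := lg_13_25
    have a4 := lg_81_100
    linarith [a0.1, a0.2, a1.1, a1.2, a2.1, a2.2, a3.1, a3.2, a4.1, a4.2]
  · have a0 := lg_3_50
    have a1 := lg_17_100
    have a2 := lg_31_100
    have a3 := lg_13_25
    have a4 := lg_81_100
    linarith [a0.1, a0.2, a1.1, a1.2, a2.1, a2.2, a3.1, a3.2, a4.1, a4.2]
  · unfold F
    rw [psi_ge (by norm_num) (by linarith : (3 / 50) ≤ m)]
    rw [psi_ge (by norm_num) (by linarith : (17 / 100) ≤ m)]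
    rw [psi_ge (by norm_num) (by linarith : (31 / 100) ≤ m)]
    rw [psi_ge (by norm_num) (by linarith : (13 / 25) ≤ m)]
    rw [psi_ge (by norm_num) (by linarith : (81 / 100) ≤ m)]
    rw [psi_le (by norm_num) (by linarith : m ≤ (5 / 4))]
    rw [psi_le (by norm_num) (by linarith : m ≤ (169 / 50))]
    ring

lemma F_6 : ∃ g : ℝ, (-6439 / 20000) ≤ g ∧ g ≤ (-80487 / 250000) ∧ ∀ m : ℝ, (5 / 4) ≤ m → m ≤ (169 / 50) →
    F m = (19101 / 50000) * Real.log m + (237 / 250) * m + g := by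
  refine ⟨(153 / 1000) * (-(3 / 50) + (3 / 50) * Real.log (3 / 50)) + (21 / 250) * (-(17 / 100) + (17 / 100) * Real.log (17 / 100)) + (1 / 8) * (-(31 / 100) + (31 / 100) * Real.log (31 / 100)) + (3 / 40) * (-(13 / 25) + (13 / 25) * Real.log (13 / 25)) + (67 / 1000) * (-(81 / 100) + (81 / 100) * Real.log (81 / 100)) + (17 / 500) * (-(5 / 4) + (5 / 4) * Real.log (5 / 4)), ?_, ?_, fun m h1 h2 => ?_⟩
  · have a0 := lg_3_50
    have a1 := lg_17_100
    have a2 := lg_31_100
    have a3 := lg_13_25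
    have a4 := lg_81_100
    have a5 := lg_5_4
    linarith [a0.1, a0.2, a1.1, a1.2, a2.1, a2.2, a3.1, a3.2, a4.1, a4.2, a5.1, a5.2]
  · have a0 := lg_3_50
    have a1 := lg_17_100
    have a2 := lg_31_100
    have a3 := lg_13_25
    have a4 := lg_81_100
    have a5 := lg_5_4
    linarith [a0.1, a0.2, a1.1, a1.2, a2.1, a2.2, a3.1, a3.2, a4.1, a4.2, a5.1, a5.2]
  · unfold F
    rw [psi_ge (by norm_num) (by linarith : (3 / 50) ≤ m)]
    rw [psi_ge (by norm_num) (by linarith : (17 / 100) ≤ m)]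
    rw [psi_ge (by norm_num) (by linarith : (31 / 100) ≤ m)]
    rw [psi_ge (by norm_num) (by linarith : (13 / 25) ≤ m)]
    rw [psi_ge (by norm_num) (by linarith : (81 / 100) ≤ m)]
    rw [psi_ge (by norm_num) (by linarith : (5 / 4) ≤ m)]
    rw [psi_le (by norm_num) (by linarith : m ≤ (169 / 50))]
    ring

lemma F_7 : ∃ g : ℝ, (-291021 / 1000000) ≤ g ∧ g ≤ (-291019 / 1000000) ∧ ∀ m : ℝ, (169 / 50) ≤ m → True →
    F m = (12003 / 50000) * Real.log m + (99 / 100) * m + g := by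
  refine ⟨(153 / 1000) * (-(3 / 50) + (3 / 50) * Real.log (3 / 50)) + (21 / 250) * (-(17 / 100) + (17 / 100) * Real.log (17 / 100)) + (1 / 8) * (-(31 / 100) + (31 / 100) * Real.log (31 / 100)) + (3 / 40) * (-(13 / 25) + (13 / 25) * Real.log (13 / 25)) + (67 / 1000) * (-(81 / 100) + (81 / 100) * Real.log (81 / 100)) + (17 / 500) * (-(5 / 4) + (5 / 4) * Real.log (5 / 4)) + (21 / 500) * (-(169 / 50) + (169 / 50) * Real.log (169 / 50)), ?_, ?_, fun m h1 h2 => ?_⟩
  · have a0 := lg_3_50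
    have a1 := lg_17_100
    have a2 := lg_31_100
    have a3 := lg_13_25
    have a4 := lg_81_100
    have a5 := lg_5_4
    have a6 := lg_169_50
    linarith [a0.1, a0.2, a1.1, a1.2, a2.1, a2.2, a3.1, a3.2, a4.1, a4.2, a5.1, a5.2, a6.1, a6.2]
  · have a0 := lg_3_50
    have a1 := lg_17_100
    have a2 := lg_31_100
    have a3 := lg_13_25
    have a4 := lg_81_100
    have a5 := lg_5_4
    have a6 := lg_169_50
    linarith [a0.1, a0.2, a1.1, a1.2, a2.1, a2.2, a3.1, a3.2, a4.1, a4.2, a5.1, a5.2, a6.1, a6.2]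
  · unfold F
    rw [psi_ge (by norm_num) (by linarith : (3 / 50) ≤ m)]
    rw [psi_ge (by norm_num) (by linarith : (17 / 100) ≤ m)]
    rw [psi_ge (by norm_num) (by linarith : (31 / 100) ≤ m)]
    rw [psi_ge (by norm_num) (by linarith : (13 / 25) ≤ m)]
    rw [psi_ge (by norm_num) (by linarith : (81 / 100) ≤ m)]
    rw [psi_ge (by norm_num) (by linarith : (5 / 4) ≤ m)]
    rw [psi_ge (by norm_num) (by linarith : (169 / 50) ≤ m)]
    ring

end Vale.Agent.P254.S929
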