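import Mathlib

/-!
# P254, block S: numerical logarithms (helper929, generated)
-/

noncomputable section

namespace Vale.Agent.P254.S929

open Real Finset

/-- partial sums of the artanh series -/
lemma log_art5 {x : ℝ} (h0 : 0 ≤ x) (h1 : x < 1) :
    2 * (x + x ^ 3 / 3 + x ^ 5 / 5 + x ^ 7 / 7 + x ^ 9 / 9) ≤ Real.log ((1 + x) / (1 - x)) ∧
    Real.log ((1 + x) / (1 - x)) ≤
      2 * (x + x ^ 3 / 3 + x ^ 5 / 5 + x ^ 7 / 7 + x ^ 9 / 9 + x ^ 11 / (1 - x ^ 2)) := by
  have a := Real.sum_range_le_log_div h0 h1 5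
  have b := Real.log_div_le_sum_range_add h0 h1 5
  simp only [sum_range_succ, sum_range_zero] at a b
  norm_num at a b
  constructor
  · linarith
  · linarith

lemma lgA {q X : ℝ} {k : ℕ} (hq : 0 < q) (_h0 : 0 ≤ X) (_h1 : X < 1)
    (h : q * 2 ^ k = (1 + X) / (1 - X)) :
    Real.log q = Real.log ((1 + X) / (1 - X)) - k * Real.log 2 := by
  rw [← h, Real.log_mul hq.ne' (by positivity), Real.log_pow]
  ring

lemma lgB {q X : ℝ} {k : ℕ} (hq : 0 < q) (_h0 : 0 ≤ X) (_h1 : X < 1)
    (h : (q * 2 ^ k)⁻¹ = (1 + X) / (1 - X)) :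
    Real.log q = -Real.log ((1 + X) / (1 - X)) - k * Real.log 2 := by
  rw [← h, Real.log_inv, Real.log_mul hq.ne' (by positivity), Real.log_pow]
  ring

lemma lgC {q X : ℝ} {k : ℕ} (hq : 0 < q) (_h0 : 0 ≤ X) (_h1 : X < 1)
    (h : q / 2 ^ k = (1 + X) / (1 - X)) :
    Real.log q = Real.log ((1 + X) / (1 - X)) + k * Real.log 2 := by
  rw [← h, Real.log_div hq.ne' (by positivity), Real.log_pow]
  ring

lemma lgD {q X : ℝ} {k : ℕ} (hq : 0 < q) (_h0 : 0 ≤ X) (_h1 : X < 1)
    (h : (q / 2 ^ k)⁻¹ = (1 + X) / (1 - X)) :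
    Real.log q = -Real.log ((1 + X) / (1 - X)) + k * Real.log 2 := by
  rw [← h, Real.log_inv, Real.log_div hq.ne' (by positivity), Real.log_pow]
  ring

lemma lg_1_1000 : (-1726939 / 250000) < Real.log (1 / 1000) ∧ Real.log (1 / 1000) < (-1381551 / 200000) := by
  have e := lgA (q := (1 / 1000)) (X := (3 / 253)) (k := 10) (by norm_num) (by norm_num) (by norm_num) (by norm_num)
  obtain ⟨a, b⟩ := log_art5 (x := (3 / 253)) (by norm_num) (by norm_num)
  have h2a := Real.log_two_gt_d9
  have h2b := Real.log_two_lt_d9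
  rw [e]
  generalize Real.log ((1 + (3 / 253)) / (1 - (3 / 253))) = Y at *
  generalize Real.log 2 = Z at *
  clear e
  norm_num at a b h2a h2b ⊢
  constructor <;> linarith

lemma lg_3_1000 : (-5809143 / 1000000) < Real.log (3 / 1000) ∧ Real.log (3 / 1000) < (-2904571 / 500000) := by
  have e := lgB (q := (3 / 1000)) (X := (29 / 221)) (k := 8) (by norm_num) (by norm_num) (by norm_num) (by norm_num)
  obtain ⟨a, b⟩ := log_art5 (x := (29 / 221)) (by norm_num) (by norm_num)
  have h2a := Real.log_two_gt_d9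
  have h2b := Real.log_two_lt_d9
  rw [e]
  generalize Real.log ((1 + (29 / 221)) / (1 - (29 / 221))) = Y at *
  generalize Real.log 2 = Z at *
  clear e
  norm_num at a b h2a h2b ⊢
  constructor <;> linarith

lemma lg_7_1000 : (-2480923 / 500000) < Real.log (7 / 1000) ∧ Real.log (7 / 1000) < (-992369 / 200000) := by
  have e := lgB (q := (7 / 1000)) (X := (13 / 237)) (k := 7) (by norm_num) (by norm_num) (by norm_num) (by norm_num)
  obtain ⟨a, b⟩ := log_art5 (x := (13 / 237)) (by norm_num) (by norm_num)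
  have h2a := Real.log_two_gt_d9
  have h2b := Real.log_two_lt_d9
  rw [e]
  generalize Real.log ((1 + (13 / 237)) / (1 - (13 / 237))) = Y at *
  generalize Real.log 2 = Z at *
  clear e
  norm_num at a b h2a h2b ⊢
  constructor <;> linarith

lemma lg_9_1000 : (-4710531 / 1000000) < Real.log (9 / 1000) ∧ Real.log (9 / 1000) < (-471053 / 100000) := by
  have e := lgA (q := (9 / 1000)) (X := (19 / 269)) (k := 7) (by norm_num) (by norm_num) (by norm_num) (by norm_num)
  obtain ⟨a, b⟩ := log_art5 (x := (19 / 269)) (by norm_num) (by norm_num)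
  have h2a := Real.log_two_gt_d9
  have h2b := Real.log_two_lt_d9
  rw [e]
  generalize Real.log ((1 + (19 / 269)) / (1 - (19 / 269))) = Y at *
  generalize Real.log 2 = Z at *
  clear e
  norm_num at a b h2a h2b ⊢
  constructor <;> linarith

lemma lg_1_100 : (-4605171 / 1000000) < Real.log (1 / 100) ∧ Real.log (1 / 100) < (-460517 / 100000) := by
  have e := lgA (q := (1 / 100)) (X := (7 / 57)) (k := 7) (by norm_num) (by norm_num) (by norm_num) (by norm_num)
  obtain ⟨a, b⟩ := log_art5 (x := (7 / 57)) (by norm_num) (by norm_num)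
  have h2a := Real.log_two_gt_d9
  have h2b := Real.log_two_lt_d9
  rw [e]
  generalize Real.log ((1 + (7 / 57)) / (1 - (7 / 57))) = Y at *
  generalize Real.log 2 = Z at *
  clear e
  norm_num at a b h2a h2b ⊢
  constructor <;> linarith

lemma lg_3_50 : (-7033527 / 2500000) < Real.log (3 / 50) ∧ Real.log (3 / 50) < (-28134107 / 10000000) := by
  have e := lgB (q := (3 / 50)) (X := (1 / 49)) (k := 4) (by norm_num) (by norm_num) (by norm_num) (by norm_num)
  obtain ⟨a, b⟩ := log_art5 (x := (1 / 49)) (by norm_num) (by norm_num)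
  have h2a := Real.log_two_gt_d9
  have h2b := Real.log_two_lt_d9
  rw [e]
  generalize Real.log ((1 + (1 / 49)) / (1 - (1 / 49))) = Y at *
  generalize Real.log 2 = Z at *
  clear e
  norm_num at a b h2a h2b ⊢
  constructor <;> linarith

lemma lg_13_100 : (-2040221 / 1000000) < Real.log (13 / 100) ∧ Real.log (13 / 100) < (-102011 / 50000) := by
  have e := lgA (q := (13 / 100)) (X := (1 / 51)) (k := 3) (by norm_num) (by norm_num) (by norm_num) (by norm_num)
  obtain ⟨a, b⟩ := log_art5 (x := (1 / 51)) (by norm_num) (by norm_num)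
  have h2a := Real.log_two_gt_d9
  have h2b := Real.log_two_lt_d9
  rw [e]
  generalize Real.log ((1 + (1 / 51)) / (1 - (1 / 51))) = Y at *
  generalize Real.log 2 = Z at *
  clear e
  norm_num at a b h2a h2b ⊢
  constructor <;> linarith

lemma lg_7_50 : (-1966113 / 1000000) < Real.log (7 / 50) ∧ Real.log (7 / 50) < (-61441 / 31250) := by
  have e := lgA (q := (7 / 50)) (X := (3 / 53)) (k := 3) (by norm_num) (by norm_num) (by norm_num) (by norm_num)
  obtain ⟨a, b⟩ := log_art5 (x := (3 / 53)) (by norm_num) (by norm_num)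
  have h2a := Real.log_two_gt_d9
  have h2b := Real.log_two_lt_d9
  rw [e]
  generalize Real.log ((1 + (3 / 53)) / (1 - (3 / 53))) = Y at *
  generalize Real.log 2 = Z at *
  clear e
  norm_num at a b h2a h2b ⊢
  constructor <;> linarith

lemma lg_17_100 : (-17719569 / 10000000) < Real.log (17 / 100) ∧ Real.log (17 / 100) < (-1107473 / 625000) := by
  have e := lgA (q := (17 / 100)) (X := (9 / 59)) (k := 3) (by norm_num) (by norm_num) (by norm_num) (by norm_num)
  obtain ⟨a, b⟩ := log_art5 (x := (9 / 59)) (by norm_num) (by norm_num)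
  have h2a := Real.log_two_gt_d9
  have h2b := Real.log_two_lt_d9
  rw [e]
  generalize Real.log ((1 + (9 / 59)) / (1 - (9 / 59))) = Y at *
  generalize Real.log 2 = Z at *
  clear e
  norm_num at a b h2a h2b ⊢
  constructor <;> linarith

lemma lg_57_250 : (-147841 / 100000) < Real.log (57 / 250) ∧ Real.log (57 / 250) < (-1478409 / 1000000) := by
  have e := lgB (q := (57 / 250)) (X := (11 / 239)) (k := 2) (by norm_num) (by norm_num) (by norm_num) (by norm_num)
  obtain ⟨a, b⟩ := log_art5 (x := (11 / 239)) (by norm_num) (by norm_num)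
  have h2a := Real.log_two_gt_d9
  have h2b := Real.log_two_lt_d9
  rw [e]
  generalize Real.log ((1 + (11 / 239)) / (1 - (11 / 239))) = Y at *
  generalize Real.log 2 = Z at *
  clear e
  norm_num at a b h2a h2b ⊢
  constructor <;> linarith

lemma lg_31_100 : (-1171183 / 1000000) < Real.log (31 / 100) ∧ Real.log (31 / 100) < (-11711829 / 10000000) := by
  have e := lgA (q := (31 / 100)) (X := (3 / 28)) (k := 2) (by norm_num) (by norm_num) (by norm_num) (by norm_num)
  obtain ⟨a, b⟩ := log_art5 (x := (3 / 28)) (by norm_num) (by norm_num)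
  have h2a := Real.log_two_gt_d9
  have h2b := Real.log_two_lt_d9
  rw [e]
  generalize Real.log ((1 + (3 / 28)) / (1 - (3 / 28))) = Y at *
  generalize Real.log 2 = Z at *
  clear e
  norm_num at a b h2a h2b ⊢
  constructor <;> linarith

lemma lg_13_25 : (-1307853 / 2000000) < Real.log (13 / 25) ∧ Real.log (13 / 25) < (-51088 / 78125) := by
  have e := lgA (q := (13 / 25)) (X := (1 / 51)) (k := 1) (by norm_num) (by norm_num) (by norm_num) (by norm_num)
  obtain ⟨a, b⟩ := log_art5 (x := (1 / 51)) (by norm_num) (by norm_num)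
  have h2a := Real.log_two_gt_d9
  have h2b := Real.log_two_lt_d9
  rw [e]
  generalize Real.log ((1 + (1 / 51)) / (1 - (1 / 51))) = Y at *
  generalize Real.log 2 = Z at *
  clear e
  norm_num at a b h2a h2b ⊢
  constructor <;> linarith

lemma lg_341_500 : (-191363 / 500000) < Real.log (341 / 500) ∧ Real.log (341 / 500) < (-15309 / 40000) := by
  have e := lgA (q := (341 / 500)) (X := (91 / 591)) (k := 1) (by norm_num) (by norm_num) (by norm_num) (by norm_num)
  obtain ⟨a, b⟩ := log_art5 (x := (91 / 591)) (by norm_num) (by norm_num)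
  have h2a := Real.log_two_gt_d9
  have h2b := Real.log_two_lt_d9
  rw [e]
  generalize Real.log ((1 + (91 / 591)) / (1 - (91 / 591))) = Y at *
  generalize Real.log 2 = Z at *
  clear e
  norm_num at a b h2a h2b ⊢
  constructor <;> linarith

lemma lg_81_100 : (-2107211 / 10000000) < Real.log (81 / 100) ∧ Real.log (81 / 100) < (-210721 / 1000000) := by
  have e := lgB (q := (81 / 100)) (X := (19 / 181)) (k := 0) (by norm_num) (by norm_num) (by norm_num) (by norm_num)
  obtain ⟨a, b⟩ := log_art5 (x := (19 / 181)) (by norm_num) (by norm_num)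
  have h2a := Real.log_two_gt_d9
  have h2b := Real.log_two_lt_d9
  rw [e]
  generalize Real.log ((1 + (19 / 181)) / (1 - (19 / 181))) = Y at *
  generalize Real.log 2 = Z at *
  clear e
  norm_num at a b h2a h2b ⊢
  constructor <;> linarith

lemma lg_421_500 : (-21497 / 125000) < Real.log (421 / 500) ∧ Real.log (421 / 500) < (-6879 / 40000) := by
  have e := lgB (q := (421 / 500)) (X := (79 / 921)) (k := 0) (by norm_num) (by norm_num) (by norm_num) (by norm_num)
  obtain ⟨a, b⟩ := log_art5 (x := (79 / 921)) (by norm_num) (by norm_num)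
  have h2a := Real.log_two_gt_d9
  have h2b := Real.log_two_lt_d9
  rw [e]
  generalize Real.log ((1 + (79 / 921)) / (1 - (79 / 921))) = Y at *
  generalize Real.log 2 = Z at *
  clear e
  norm_num at a b h2a h2b ⊢
  constructor <;> linarith

lemma lg_5_4 : (446287 / 2000000) < Real.log (5 / 4) ∧ Real.log (5 / 4) < (557859 / 2500000) := by
  have e := lgA (q := (5 / 4)) (X := (1 / 9)) (k := 0) (by norm_num) (by norm_num) (by norm_num) (by norm_num)
  obtain ⟨a, b⟩ := log_art5 (x := (1 / 9)) (by norm_num) (by norm_num)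
  have h2a := Real.log_two_gt_d9
  have h2b := Real.log_two_lt_d9
  rw [e]
  generalize Real.log ((1 + (1 / 9)) / (1 - (1 / 9))) = Y at *
  generalize Real.log 2 = Z at *
  clear e
  norm_num at a b h2a h2b ⊢
  constructor <;> linarith

lemma lg_17_10 : (132657 / 250000) < Real.log (17 / 10) ∧ Real.log (17 / 10) < (530629 / 1000000) := by
  have e := lgD (q := (17 / 10)) (X := (3 / 37)) (k := 1) (by norm_num) (by norm_num) (by norm_num) (by norm_num)
  obtain ⟨a, b⟩ := log_art5 (x := (3 / 37)) (by norm_num) (by norm_num)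
  have h2a := Real.log_two_gt_d9
  have h2b := Real.log_two_lt_d9
  rw [e]
  generalize Real.log ((1 + (3 / 37)) / (1 - (3 / 37))) = Y at *
  generalize Real.log 2 = Z at *
  clear e
  norm_num at a b h2a h2b ⊢
  constructor <;> linarith

lemma lg_2_1 : (693147 / 1000000) < Real.log 2 ∧ Real.log 2 < (173287 / 250000) := by
  have e := lgC (q := 2) (X := 0) (k := 1) (by norm_num) (by norm_num) (by norm_num) (by norm_num)
  obtain ⟨a, b⟩ := log_art5 (x := 0) (by norm_num) (by norm_num)
  have h2a := Real.log_two_gt_d9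
  have h2b := Real.log_two_lt_d9
  rw [e]
  generalize Real.log ((1 + 0) / (1 - 0)) = Y at *
  generalize Real.log 2 = Z at *
  clear e
  norm_num at a b h2a h2b ⊢
  constructor <;> linarith

lemma lg_21_10 : (741937 / 1000000) < Real.log (21 / 10) ∧ Real.log (21 / 10) < (370969 / 500000) := by
  have e := lgC (q := (21 / 10)) (X := (1 / 41)) (k := 1) (by norm_num) (by norm_num) (by norm_num) (by norm_num)
  obtain ⟨a, b⟩ := log_art5 (x := (1 / 41)) (by norm_num) (by norm_num)
  have h2a := Real.log_two_gt_d9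
  have h2b := Real.log_two_lt_d9
  rw [e]
  generalize Real.log ((1 + (1 / 41)) / (1 - (1 / 41))) = Y at *
  generalize Real.log 2 = Z at *
  clear e
  norm_num at a b h2a h2b ⊢
  constructor <;> linarith

lemma lg_169_50 : (12178757 / 10000000) < Real.log (169 / 50) ∧ Real.log (169 / 50) < (6089379 / 5000000) := by
  have e := lgD (q := (169 / 50)) (X := (31 / 369)) (k := 2) (by norm_num) (by norm_num) (by norm_num) (by norm_num)
  obtain ⟨a, b⟩ := log_art5 (x := (31 / 369)) (by norm_num) (by norm_num)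
  have h2a := Real.log_two_gt_d9
  have h2b := Real.log_two_lt_d9
  rw [e]
  generalize Real.log ((1 + (31 / 369)) / (1 - (31 / 369))) = Y at *
  generalize Real.log 2 = Z at *
  clear e
  norm_num at a b h2a h2b ⊢
  constructor <;> linarith

lemma lg_18_5 : (1280933 / 1000000) < Real.log (18 / 5) ∧ Real.log (18 / 5) < (640467 / 500000) := by
  have e := lgD (q := (18 / 5)) (X := (1 / 19)) (k := 2) (by norm_num) (by norm_num) (by norm_num) (by norm_num)
  obtain ⟨a, b⟩ := log_art5 (x := (1 / 19)) (by norm_num) (by norm_num)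
  have h2a := Real.log_two_gt_d9
  have h2b := Real.log_two_lt_d9
  rw [e]
  generalize Real.log ((1 + (1 / 19)) / (1 - (1 / 19))) = Y at *
  generalize Real.log 2 = Z at *
  clear e
  norm_num at a b h2a h2b ⊢
  constructor <;> linarith

lemma lg_9_2 : (1504077 / 1000000) < Real.log (9 / 2) ∧ Real.log (9 / 2) < (752039 / 500000) := by
  have e := lgC (q := (9 / 2)) (X := (1 / 17)) (k := 2) (by norm_num) (by norm_num) (by norm_num) (by norm_num)
  obtain ⟨a, b⟩ := log_art5 (x := (1 / 17)) (by norm_num) (by norm_num)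
  have h2a := Real.log_two_gt_d9
  have h2b := Real.log_two_lt_d9
  rw [e]
  generalize Real.log ((1 + (1 / 17)) / (1 - (1 / 17))) = Y at *
  generalize Real.log 2 = Z at *
  clear e
  norm_num at a b h2a h2b ⊢
  constructor <;> linarith

lemma lg_47_10 : (773781 / 500000) < Real.log (47 / 10) ∧ Real.log (47 / 10) < (1547563 / 1000000) := by
  have e := lgC (q := (47 / 10)) (X := (7 / 87)) (k := 2) (by norm_num) (by norm_num) (by norm_num) (by norm_num)
  obtain ⟨a, b⟩ := log_art5 (x := (7 / 87)) (by norm_num) (by norm_num)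
  have h2a := Real.log_two_gt_d9
  have h2b := Real.log_two_lt_d9
  rw [e]
  generalize Real.log ((1 + (7 / 87)) / (1 - (7 / 87))) = Y at *
  generalize Real.log 2 = Z at *
  clear e
  norm_num at a b h2a h2b ⊢
  constructor <;> linarith

end Vale.Agent.P254.S929
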