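import Vale.Agent.P254.S.H929.FDef

/-!
# P254, block S: tools for the segments of the certificate (helper929)
-/

noncomputable section

namespace Vale.Agent.P254.S929

open Real Set

/-- the function to be bounded, after linearisation of the square with slope `s` at `t = T` -/
def G (c T kk s m : ℝ) : ℝ :=
  -2 * Real.log m + (al + ga * m + be * m ^ 2) - 2 * s * (F m - T) + s ^ 2 + c * (1 + m ^ 2) / 2 - 1
    - Real.log c - kk * (m - 1)

lemma core {lu u m w P : ℝ} (hu : 0 < u) (hm : u ≤ m) (hlu : lu ≤ Real.log u) (hw : 0 ≤ w)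
    (hN : P * (m + u) ^ 3 ≤ w * (lu * (m + u) ^ 3 + 2 * (m - u) * (m + u) ^ 2 +
      2 / 3 * (m - u) ^ 3)) : P ≤ w * Real.log m := by
  have hm0 : 0 < m := hu.trans_le hm
  have hp : 0 < m + u := by positivity
  set x : ℝ := (m - u) / (m + u) with hx
  have hx0 : 0 ≤ x := div_nonneg (sub_nonneg.2 hm) hp.le
  have hx1 : x < 1 := by rw [hx, div_lt_one hp]; linarith
  have h1 := Real.sum_range_le_log_div hx0 hx1 2
  simp only [Finset.sum_range_succ, Finset.sum_range_zero] at h1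
  norm_num at h1
  have e1 : 1 + x = 2 * m / (m + u) := by
    rw [hx]
    field_simp
    ring
  have e2 : 1 - x = 2 * u / (m + u) := by
    rw [hx]
    field_simp
    ring
  have h2 : (1 + x) / (1 - x) = m / u := by
    rw [e1, e2, div_div_div_cancel_right₀ hp.ne', mul_div_mul_left _ _ (by norm_num : (2 : ℝ) ≠ 0)]
  rw [h2, Real.log_div hm0.ne' hu.ne'] at h1
  have h3 : lu + 2 * x + 2 / 3 * x ^ 3 ≤ Real.log m := by linarith
  have h4 : (lu + 2 * x + 2 / 3 * x ^ 3) * (m + u) ^ 3 =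
      lu * (m + u) ^ 3 + 2 * (m - u) * (m + u) ^ 2 + 2 / 3 * (m - u) ^ 3 := by
    rw [hx]
    field_simp
  have h5 : P * (m + u) ^ 3 ≤ (w * Real.log m) * (m + u) ^ 3 := by
    calc P * (m + u) ^ 3 ≤ w * ((lu + 2 * x + 2 / 3 * x ^ 3) * (m + u) ^ 3) := by rw [h4]; exact hN
      _ = w * (lu + 2 * x + 2 / 3 * x ^ 3) * (m + u) ^ 3 := by ring
      _ ≤ (w * Real.log m) * (m + u) ^ 3 :=
          mul_le_mul_of_nonneg_right (mul_le_mul_of_nonneg_left h3 hw) (by positivity)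
  exact le_of_mul_le_mul_right h5 (by positivity)

lemma core0 {l0 m0 m : ℝ} (h0 : 0 < m0) (hm : 0 < m) (hl : l0 ≤ Real.log m0) :
    m * (l0 + 1) - m0 ≤ m * Real.log m := by
  have h := Real.one_sub_inv_le_log_of_pos (div_pos hm h0)
  rw [Real.log_div hm.ne' h0.ne', inv_div] at h
  have h2 : m * (l0 + (1 - m0 / m)) ≤ m * Real.log m :=
    mul_le_mul_of_nonneg_left (by linarith) hm.le
  have h3 : m * (l0 + (1 - m0 / m)) = m * (l0 + 1) - m0 := by
    field_simp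
    ring
  linarith

lemma gam {s g gb S e : ℝ} (h1 : gb - e ≤ g) (h2 : g ≤ gb + e) (h3 : -S ≤ s) (h4 : s ≤ S) :
    -2 * s * g ≤ -2 * s * gb + 2 * S * e := by
  nlinarith [mul_nonneg (by linarith : 0 ≤ S + s) (by linarith : 0 ≤ g - gb + e),
    mul_nonneg (by linarith : 0 ≤ S - s) (by linarith : 0 ≤ gb + e - g)]

lemma gaminf {s g gb e : ℝ} (h1 : gb - e ≤ g) (h3 : 0 ≤ s) :
    -2 * s * g ≤ -2 * s * gb + 2 * e * s := by
  nlinarith [mul_nonneg h3 (by linarith : 0 ≤ g - gb + e)]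

/-- `t ≥ T`, slope below `a (m-1)` -/
lemma eng_lo {t T f s a m k : ℝ} (ht : T ≤ t) (hs : s ≤ a * (m - 1)) :
    -(f - t) ^ 2 - (k + 2 * a * t) * (m - 1) ≤
      -2 * s * (f - T) + s ^ 2 - (k + 2 * a * T) * (m - 1) := by
  have h1 := sq_nonneg (f - t - s)
  have h2 := mul_nonneg (sub_nonneg.2 ht) (sub_nonneg.2 hs)
  linarith

/-- `t ≤ T`, slope above `a (m-1)` -/
lemma eng_hi {t T f s a m k : ℝ} (ht : t ≤ T) (hs : a * (m - 1) ≤ s) :
    -(f - t) ^ 2 - (k + 2 * a * t) * (m - 1) ≤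
      -2 * s * (f - T) + s ^ 2 - (k + 2 * a * T) * (m - 1) := by
  have h1 := sq_nonneg (f - t - s)
  have h2 := mul_nonneg (sub_nonneg.2 ht) (sub_nonneg.2 hs)
  linarith

/-- any `t`, slope `a (m-1)` -/
lemma eng_eq {t f s a m k : ℝ} (hs : s = a * (m - 1)) :
    -(f - t) ^ 2 - (k + 2 * a * t) * (m - 1) ≤ -2 * s * (f - 0) + s ^ 2 - k * (m - 1) := by
  have h1 := sq_nonneg (f - t - s)
  subst hs
  linarith

end Vale.Agent.P254.S929
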